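import Vale.Agent.P176.U

namespace Vale.Agent.P176

open MvPolynomial Matrix

theorem Gl.sc {R : Type*} [Ring R] {e : Ix → R} (h : Gl e) (x y : Ix) :
    e x * e y - e y * e x = ∑ z, sc x y z • e z := by
  rw [h x y]
  simp only [Vale.Agent.P176.sc, sub_smul, Finset.sum_sub_distrib, ite_smul, one_smul, zero_smul]
  congr 1
  · by_cases h1 : x.2 = y.1 <;> simp [h1]
  · by_cases h1 : y.2 = x.1 <;> simp [h1]

/-- the Chevalley Eilenberg differential -/
def ce {R : Type*} [Ring R] (e : Ix → R) : Matrix (Fin 16) (Fin 16) R :=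
  fun I J => ∑ x, an x I J • e x + (qq I J : R)

theorem ce_sq {R : Type*} [Ring R] [Algebra ℚ R] {e : Ix → R} (h : Gl e) : ce e * ce e = 0 := by
  ext I J
  set α : Ix → Ix → ℤ := fun x y => ∑ K, an x I K * an y K J with hα
  set β : Ix → ℤ := fun z => ∑ K, (an z I K * qq K J + qq I K * an z K J) with hβ
  have h1 : (ce e * ce e) I J = ∑ x, ∑ y, α x y • (e x * e y) + ∑ z, β z • e z +
      ((∑ K, qq I K * qq K J : ℤ) : R) := by
    simp only [Matrix.mul_apply, ce, hα, hβ, add_mul, mul_add, Finset.sum_add_distrib,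
      Finset.sum_mul, Finset.mul_sum, Finset.sum_smul, add_smul, Int.cast_sum, Int.cast_mul]
    have e1 : ∑ K, ∑ y, ∑ x, an x I K • e x * an y K J • e y =
        ∑ x, ∑ y, ∑ K, (an x I K * an y K J) • (e x * e y) := by
      rw [Finset.sum_comm]
      conv_rhs => rw [Finset.sum_comm]
      refine Finset.sum_congr rfl fun y _ => ?_
      rw [Finset.sum_comm]
      refine Finset.sum_congr rfl fun x _ => Finset.sum_congr rfl fun K _ => ?_
      rw [smul_mul_smul_comm]
    have e2 : ∑ K, ∑ y, (qq I K : R) * an y K J • e y = ∑ y, ∑ K, (qq I K * an y K J) • e y := by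
      rw [Finset.sum_comm]
      refine Finset.sum_congr rfl fun y _ => Finset.sum_congr rfl fun K _ => ?_
      rw [mul_smul, zsmul_eq_mul (an y K J • e y)]
    have e3 : ∑ K, ∑ y, an y I K • e y * (qq K J : R) = ∑ y, ∑ K, (an y I K * qq K J) • e y := by
      rw [Finset.sum_comm]
      refine Finset.sum_congr rfl fun y _ => Finset.sum_congr rfl fun K _ => ?_
      rw [mul_smul, smul_mul_assoc, zsmul_eq_mul (e y) (qq K J), Int.cast_comm]
    rw [e1, e2, e3]; abel
  have h2 : ∑ x, ∑ y, α x y • (e x * e y) = -∑ x, ∑ y, α x y • (e y * e x) := by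
    rw [Finset.sum_comm, ← Finset.sum_neg_distrib]
    refine Finset.sum_congr rfl fun y _ => ?_
    rw [← Finset.sum_neg_distrib]
    refine Finset.sum_congr rfl fun x _ => ?_
    have := anti x y I J
    rw [Finset.sum_add_distrib] at this
    have h' : α x y = -α y x := by simp only [hα]; linarith
    rw [h', neg_smul]
  have h3 : ∑ x, ∑ y, α x y • (e x * e y) - ∑ x, ∑ y, α x y • (e y * e x) =
      -∑ z, (2 * β z) • e z := by
    rw [← Finset.sum_sub_distrib]
    simp only [← Finset.sum_sub_distrib, ← smul_sub, h.sc, Finset.smul_sum, smul_smul]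
    rw [← Finset.sum_neg_distrib]
    have : ∀ x, ∑ y, ∑ z, (α x y * sc x y z) • e z = ∑ z, ∑ y, (α x y * sc x y z) • e z :=
      fun x => Finset.sum_comm
    simp only [this]
    rw [Finset.sum_comm]
    refine Finset.sum_congr rfl fun z _ => ?_
    simp only [← Finset.sum_smul, ← neg_smul]
    congr 1
    have := qan z I J
    simp only [hα, hβ, mul_comm (sc _ _ z)] at this ⊢
    linarith
  rw [h1, qsq, Matrix.zero_apply, Int.cast_zero, add_zero]
  have h4 : (2 : ℚ) • (∑ x, ∑ y, α x y • (e x * e y) + ∑ z, β z • e z) = 0 := by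
    have h5 : ∑ z, (2 * β z) • e z = ∑ z, β z • e z + ∑ z, β z • e z := by
      simp only [two_mul, add_smul, Finset.sum_add_distrib]
    rw [two_smul]
    rw [h5] at h3
    linear_combination (norm := abel) h3 + h2
  exact (smul_eq_zero.mp h4).resolve_left (by norm_num)

/-- Koszul differential on symbols -/
noncomputable def kos (p : Fin 16 → S) (J : Fin 16) : S := ∑ I, ∑ x, an x I J • (X x * p I)

/-- contracting homotopy -/
noncomputable def del (p : Fin 16 → S) (J : Fin 16) : S := ∑ I, ∑ x, an x J I • pderiv x (p I)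

theorem kos_del (p : Fin 16 → S) (J : Fin 16) :
    kos (del p) J + del (kos p) J = ∑ x, X x * pderiv x (p J) + (lab J : ℤ) • p J := by
  have e1 : kos (del p) J = ∑ I, ∑ x, ∑ y, (∑ K, an y K I * an x K J) • (X x * pderiv y (p I)) := by
    simp only [kos, del, Finset.mul_sum, Finset.smul_sum, mul_smul_comm, smul_smul,
      Finset.sum_smul]
    have : ∀ K, ∑ x, ∑ I, ∑ y, (an x K J * an y K I) • (X x * pderiv y (p I)) =
        ∑ I, ∑ x, ∑ y, (an x K J * an y K I) • (X x * pderiv y (p I)) := fun K => Finset.sum_comm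
    simp only [this]
    rw [Finset.sum_comm]
    refine Finset.sum_congr rfl fun I _ => ?_
    rw [Finset.sum_comm]
    refine Finset.sum_congr rfl fun x _ => ?_
    rw [Finset.sum_comm]
    simp only [mul_comm (an x _ J)]
  have e2 : del (kos p) J = ∑ I, ∑ x, ∑ y, (∑ K, an x I K * an y J K) •
      (X x * pderiv y (p I) + if x = y then p I else 0) := by
    simp only [kos, del, map_sum, map_zsmul, Finset.smul_sum, smul_smul, Finset.sum_smul]
    have : ∀ K, ∑ y, ∑ I, ∑ x, (an y J K * an x I K) • pderiv y (X x * p I) =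
        ∑ I, ∑ x, ∑ y, (an y J K * an x I K) • pderiv y (X x * p I) := fun K => by
      rw [Finset.sum_comm]
      exact Finset.sum_congr rfl fun I _ => Finset.sum_comm
    simp only [this]
    rw [Finset.sum_comm]
    refine Finset.sum_congr rfl fun I _ => ?_
    rw [Finset.sum_comm]
    refine Finset.sum_congr rfl fun x _ => ?_
    rw [Finset.sum_comm]
    refine Finset.sum_congr rfl fun y _ => Finset.sum_congr rfl fun K _ => ?_
    rw [mul_comm (an y J K)]
    congr 1
    rw [Derivation.leibniz, smul_eq_mul, smul_eq_mul]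
    by_cases hxy : x = y
    · subst hxy; simp
    · rw [pderiv_X_of_ne hxy]; simp [hxy]
  rw [e1, e2, ← Finset.sum_add_distrib]
  have e3 : ∀ I, (∑ x, ∑ y, (∑ K, an y K I * an x K J) • (X x * pderiv y (p I))) +
      ∑ x, ∑ y, (∑ K, an x I K * an y J K) • (X x * pderiv y (p I) + if x = y then p I else 0) =
      if I = J then ∑ x, X x * pderiv x (p J) + (lab J : ℤ) • p J else 0 := by
    intro I
    have e4 : ∀ x, (∑ y, (∑ K, an y K I * an x K J) • (X x * pderiv y (p I))) +
      ∑ y, (∑ K, an x I K * an y J K) • (X x * pderiv y (p I) + if x = y then p I else 0) =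
      (if I = J then X x * pderiv x (p I) else 0) + (∑ K, an x I K * an x J K) • p I := by
      intro x
      simp only [smul_add, Finset.sum_add_distrib, ← add_assoc]
      congr 1
      · rw [← Finset.sum_add_distrib]
        simp only [← add_smul, ← Finset.sum_add_distrib, car]
        by_cases hIJ : I = J <;> simp [hIJ]
      · simp
    rw [← Finset.sum_add_distrib]
    simp only [e4, Finset.sum_add_distrib, ← Finset.sum_smul, num]
    by_cases hIJ : I = J
    · subst hIJ; simp
    · simp [hIJ]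
  simp only [e3, Finset.sum_ite_eq', Finset.mem_univ, if_true]

theorem kos_del_of {p : Fin 16 → S} {k j : ℕ} (hp : ∀ I, (p I).IsHomogeneous k)
    (hs : ∀ I, lab I ≠ j → p I = 0) (h0 : kos p = 0) (J : Fin 16) :
    kos (del p) J = ((k + j : ℕ) : ℚ) • p J := by
  have h := kos_del p J
  have h1 : del (kos p) J = 0 := by simp [h0, del]
  rw [h1, add_zero, (hp J).sum_X_mul_pderiv] at h
  rw [h]
  by_cases hJ : lab J = j
  · rw [hJ, Nat.cast_smul_eq_nsmul ℚ (k + j), add_smul, natCast_zsmul]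
  · simp [hs J hJ]

theorem del_hom {p : Fin 16 → S} {k : ℕ} (hp : ∀ I, (p I).IsHomogeneous k) (J : Fin 16) :
    (del p J).IsHomogeneous (k - 1) := by
  refine IsHomogeneous.sum _ _ _ fun I _ => IsHomogeneous.sum _ _ _ fun x _ => ?_
  exact (homogeneousSubmodule Ix ℚ (k - 1)).toAddSubgroup.zsmul_mem ((hp I).pderiv (i := x)) _

theorem del_zero {p : Fin 16 → S} (hp : ∀ I, (p I).IsHomogeneous 0) : del p = 0 := by
  funext J
  refine Finset.sum_eq_zero fun I _ => Finset.sum_eq_zero fun x _ => ?_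
  have := hp I
  rw [← totalDegree_zero_iff_isHomogeneous, totalDegree_eq_zero_iff_eq_C] at this
  rw [this]; simp

theorem del_supp {p : Fin 16 → S} {j : ℕ} (hs : ∀ I, lab I ≠ j → p I = 0) (J : Fin 16)
    (hJ : lab J ≠ j + 1) : del p J = 0 := by
  refine Finset.sum_eq_zero fun I _ => Finset.sum_eq_zero fun x _ => ?_
  rcases an_lab x J I with h | h
  · simp [h]
  · rw [hs I (by omega)]; simp

section Res

variable {N : ℕ}

abbrev Ai (N : ℕ) := Fin 16 × Fin N

noncomputable def tw (R : Ix → Matrix (Fin N) (Fin N) ℚ) (x : Ix) : Matrix (Fin N) (Fin N) U :=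
  scalar (Fin N) (E x) - (R x)ᵀ.map (algebraMap ℚ U)

theorem gl_tw {R : Ix → Matrix (Fin N) (Fin N) ℚ} (h : Gl R) : Gl (tw R) := by
  intro x y
  have hc : ∀ (u : U) (m : Matrix (Fin N) (Fin N) ℚ),
      scalar (Fin N) u * m.map (algebraMap ℚ U) = m.map (algebraMap ℚ U) * scalar (Fin N) u := by
    intro u m
    ext a b
    simp [Algebra.commutes]
  have h1 := congrArg (scalar (Fin N)) (gl_E x y)
  have h2 := congrArg (fun m : Matrix (Fin N) (Fin N) ℚ => (algebraMap ℚ U).mapMatrix mᵀ) (h x y)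
  simp only [map_sub, map_mul, transpose_sub, transpose_mul, RingHom.mapMatrix_apply] at h1 h2
  have h3 : tw R x * tw R y - tw R y * tw R x =
      (scalar (Fin N) (E x) * scalar (Fin N) (E y) - scalar (Fin N) (E y) * scalar (Fin N) (E x)) -
      ((R y)ᵀ.map (algebraMap ℚ U) * (R x)ᵀ.map (algebraMap ℚ U) -
        (R x)ᵀ.map (algebraMap ℚ U) * (R y)ᵀ.map (algebraMap ℚ U)) := by
    simp only [tw, sub_mul, mul_sub, hc]; abel
  rw [h3, h1, h2]
  unfold tw
  have hz : (0 : Matrix (Fin N) (Fin N) ℚ)ᵀ.map (algebraMap ℚ U) = 0 := by simp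
  split_ifs <;> (try simp only [map_zero, hz]) <;> abel

/-- the differential of the resolution -/
noncomputable def dm (R : Ix → Matrix (Fin N) (Fin N) ℚ) : Matrix (Ai N) (Ai N) U :=
  compRingEquiv (Fin 16) (Fin N) U (ce (tw R))

theorem dm_sq {R : Ix → Matrix (Fin N) (Fin N) ℚ} (h : Gl R) : dm R * dm R = 0 := by
  rw [dm, ← map_mul, ce_sq (gl_tw h), map_zero]

theorem dm_apply (R : Ix → Matrix (Fin N) (Fin N) ℚ) (a b : Ai N) :
    dm R a b = ∑ x, an x a.1 b.1 • ((if a.2 = b.2 then E x else 0) - algebraMap ℚ U (R x b.2 a.2)) +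
      if a.2 = b.2 then (qq a.1 b.1 : U) else 0 := by
  simp only [dm, ce, tw, compRingEquiv_apply, comp_apply, Matrix.add_apply, Matrix.sum_apply,
    Matrix.smul_apply, Matrix.sub_apply, scalar_apply, diagonal_apply, map_apply, transpose_apply,
    Matrix.intCast_apply]
  simp

theorem dm_mem (R : Ix → Matrix (Fin N) (Fin N) ℚ) (a b : Ai N) : dm R a b ∈ G 1 := by
  rw [dm_apply]
  refine add_mem (Submodule.sum_mem _ fun x _ => ?_) ?_
  · refine (G 1).toAddSubgroup.zsmul_mem (sub_mem ?_ (alg_mem_G (by norm_num) _)) _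
    split_ifs
    · exact E_mem le_rfl x
    · exact zero_mem _
  · split_ifs
    · have := alg_mem_G (k := 1) (by norm_num) (qq a.1 b.1 : ℚ)
      simpa using this
    · exact zero_mem _

theorem dm_lab (R : Ix → Matrix (Fin N) (Fin N) ℚ) {a b : Ai N} (h : lab a.1 ≠ lab b.1 + 1) :
    dm R a b = 0 := by
  rw [dm_apply, (qq_lab a.1 b.1).resolve_right h]
  simp only [fun x => (an_lab x a.1 b.1).resolve_right h]
  simp

/-- rows of label j and level m -/
noncomputable def Row (N j : ℕ) (m : ℤ) : Submodule ℚ (Ai N → U) where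
  carrier := {y | ∀ a, y a ∈ G (m - j) ∧ (lab a.1 ≠ j → y a = 0)}
  zero_mem' := fun a => ⟨zero_mem _, fun _ => rfl⟩
  add_mem' := fun {y z} hy hz a => ⟨add_mem (hy a).1 (hz a).1, fun h => by
    simp [(hy a).2 h, (hz a).2 h]⟩
  smul_mem' := fun c y hy a => ⟨Submodule.smul_mem _ c (hy a).1, fun h => by simp [(hy a).2 h]⟩

theorem Row_mono {j : ℕ} {m m' : ℤ} (h : m ≤ m') : Row N j m ≤ Row N j m' :=
  fun _ hy a => ⟨G_mono (by omega) (hy a).1, (hy a).2⟩

theorem Row_d (R : Ix → Matrix (Fin N) (Fin N) ℚ) {j : ℕ} {m : ℤ} {y : Ai N → U}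
    (hy : y ∈ Row N (j + 1) m) : y ᵥ* dm R ∈ Row N j m := by
  intro b
  constructor
  · change ∑ a, y a * dm R a b ∈ _
    refine Submodule.sum_mem _ fun a _ => G_mul (hy a).1 (dm_mem R a b) ?_
    push_cast; omega
  · intro hb
    change ∑ a, y a * dm R a b = 0
    refine Finset.sum_eq_zero fun a _ => ?_
    by_cases ha : lab a.1 = j + 1
    · rw [dm_lab R (by omega), mul_zero]
    · rw [(hy a).2 ha, zero_mul]

theorem Row_zero_d (R : Ix → Matrix (Fin N) (Fin N) ℚ) {m : ℤ} {y : Ai N → U}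
    (hy : y ∈ Row N 0 m) : y ᵥ* dm R = 0 := by
  funext b
  change ∑ a, y a * dm R a b = 0
  refine Finset.sum_eq_zero fun a _ => ?_
  by_cases ha : lab a.1 = 0
  · rw [dm_lab R (by omega), mul_zero]
  · rw [(hy a).2 ha, zero_mul]

theorem sym_d (R : Ix → Matrix (Fin N) (Fin N) ℚ) {k : ℕ} {y : Ai N → U} (hy : ∀ a, y a ∈ G k)
    (b : Ai N) : sym (k + 1) ((y ᵥ* dm R) b) = kos (fun I => sym k (y (I, b.2))) b.1 := by
  have h0 : ∀ (a : Ai N) (c : ℚ), sym (k + 1) (y a * algebraMap ℚ U c) = 0 := fun a c =>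
    sym_low (n := k + 1) (G_mul (hy a) (alg_mem_G le_rfl c) (by simp))
  simp only [vecMul, dotProduct, map_sum, kos]
  rw [Fintype.sum_prod_type]
  refine Finset.sum_congr rfl fun I _ => ?_
  rw [Finset.sum_eq_single b.2]
  · simp only [dm_apply, if_true, mul_add, Finset.mul_sum, map_add, map_sum, mul_smul_comm,
      map_zsmul, mul_sub, map_sub, h0, sub_zero, sym_E' (hy _)]
    have := h0 (I, b.2) (qq I b.1 : ℚ)
    rw [map_intCast] at this
    rw [this, add_zero]
  · intro c _ hc
    simp only [dm_apply, if_neg hc, mul_add, Finset.mul_sum, map_add, map_sum, mul_smul_comm,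
      map_zsmul, mul_sub, map_sub, h0]
    simp
  · simp

theorem descend (R : Ix → Matrix (Fin N) (Fin N) ℚ) {j k : ℕ} (hjk : 0 < k + j) {y : Ai N → U}
    (hy : y ∈ Row N j (k + j : ℕ)) (hd : y ᵥ* dm R = 0) :
    ∃ t ∈ Row N (j + 1) (k + j : ℕ), y - t ᵥ* dm R ∈ Row N j ((k + j : ℕ) - 1) := by
  have hyk : ∀ a, y a ∈ G k := fun a => by simpa using (hy a).1
  set p : Fin N → Fin 16 → S := fun b I => sym k (y (I, b)) with hp
  have hph : ∀ b I, (p b I).IsHomogeneous k := fun b I => sym_hom _ _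
  have hps : ∀ b I, lab I ≠ j → p b I = 0 := fun b I h => by simp [hp, (hy (I, b)).2 h]
  have hk : ∀ b, kos (p b) = 0 := fun b => by
    funext J
    have := sym_d R hyk (J, b)
    rw [hd] at this
    simpa using this.symm
  have hc : ((k + j : ℕ) : ℚ) ≠ 0 := by exact_mod_cast hjk.ne'
  rcases k with _ | k
  · refine ⟨0, zero_mem _, fun a => ⟨?_, fun h => by simpa using (hy a).2 h⟩⟩
    have h1 := kos_del_of (hph a.2) (hps a.2) (hk a.2) a.1
    rw [del_zero (hph a.2)] at h1
    have h2 : p a.2 a.1 = 0 := by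
      have : ((0 + j : ℕ) : ℚ) • p a.2 a.1 = 0 := by rw [← h1]; simp [kos]
      exact (smul_eq_zero.mp this).resolve_left hc
    have := low_of_sym (hyk a) h2
    simpa using this
  · set t : Ai N → U := fun a => ((k + 1 + j : ℕ) : ℚ)⁻¹ • sec (del (p a.2) a.1) with ht
    have hdh : ∀ a : Ai N, (del (p a.2) a.1).IsHomogeneous k := fun a => by
      simpa using del_hom (hph a.2) a.1
    have htk : ∀ a, t a ∈ G k := fun a => Submodule.smul_mem _ _ (sec_spec (hdh a)).1
    have htR : t ∈ Row N (j + 1) (k + 1 + j : ℕ) := fun a =>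
      ⟨G_mono (by push_cast; omega) (htk a), fun h => by simp [ht, del_supp (hps a.2) a.1 h]⟩
    refine ⟨t, htR, fun a => ⟨?_, (sub_mem hy (Row_d R htR) a).2⟩⟩
    have h1 : (y - t ᵥ* dm R) a ∈ G (k + 1 : ℕ) := by
      have := (sub_mem hy (Row_d R htR) a).1
      simpa using this
    have h2 : sym (k + 1) ((y - t ᵥ* dm R) a) = 0 := by
      rw [Pi.sub_apply, map_sub, sym_d R htk]
      have h3 : (fun I => sym k (t (I, a.2))) = ((k + 1 + j : ℕ) : ℚ)⁻¹ • del (p a.2) := by
        funext I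
        simp only [ht, map_smul, Pi.smul_apply]
        rw [(sec_spec (hdh (I, a.2))).2]
      have h4 : ∀ (c : ℚ) (r : Fin 16 → S) J, kos (c • r) J = c • kos r J := by
        intro c r J
        simp only [kos, Finset.smul_sum, Pi.smul_apply, mul_smul_comm, smul_comm c]
      rw [h3, h4, kos_del_of (hph a.2) (hps a.2) (hk a.2), smul_smul, inv_mul_cancel₀ hc, one_smul,
        sub_self]
    have := low_of_sym h1 h2
    exact G_mono (by push_cast; omega) this

variable {M : Type*} [AddCommGroup M] [Module ℚ M] [Module U M] [IsScalarTower ℚ U M]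

/-- the augmentation -/
noncomputable def aug (β : Fin N → M) : (Ai N → U) →ₗ[U] M where
  toFun y := ∑ b, y (0, b) • β b
  map_add' y z := by simp [add_smul, Finset.sum_add_distrib]
  map_smul' u y := by simp [Finset.smul_sum, mul_smul]

theorem aug_apply (β : Fin N → M) (y : Ai N → U) : aug β y = ∑ b, y (0, b) • β b := rfl

theorem aug_d {R : Ix → Matrix (Fin N) (Fin N) ℚ} {β : Fin N → M}
    (hβ : ∀ x a, E x • β a = ∑ b, R x b a • β b) (y : Ai N → U) : aug β (y ᵥ* dm R) = 0 := by
  simp only [aug_apply, vecMul, dotProduct, Finset.sum_smul, mul_smul]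
  rw [Finset.sum_comm]
  refine Finset.sum_eq_zero fun a _ => ?_
  rw [← Finset.smul_sum]
  have : ∑ b, dm R a (0, b) • β b = 0 := by
    simp only [dm_apply, qq_zero, Int.cast_zero, ite_self, add_zero, Finset.sum_smul]
    rw [Finset.sum_comm]
    refine Finset.sum_eq_zero fun x _ => ?_
    simp only [smul_assoc, ← Finset.smul_sum, sub_smul, Finset.sum_sub_distrib, ite_smul, zero_smul,
      Finset.sum_ite_eq, Finset.mem_univ, if_true, algebraMap_smul, hβ, sub_self, smul_zero]
  rw [this, smul_zero]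

theorem row_exact {R : Ix → Matrix (Fin N) (Fin N) ℚ} (hR : Gl R) {β : Fin N → M}
    (hβ : ∀ x a, E x • β a = ∑ b, R x b a • β b) (hli : LinearIndependent ℚ β) {j : ℕ} (n : ℕ) :
    ∀ y ∈ Row N j ((n : ℤ) - 1), y ᵥ* dm R = 0 → aug β y = 0 →
      ∃ t ∈ Row N (j + 1) ((n : ℤ) - 1), t ᵥ* dm R = y := by
  induction n with
  | zero =>
    intro y hy _ _
    refine ⟨0, zero_mem _, ?_⟩
    funext a
    simpa using (G_neg (by omega) (hy a).1).symm
  | succ n ih =>
    intro y hy hd ha
    by_cases hnj : n < j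
    · refine ⟨0, zero_mem _, ?_⟩
      funext a
      simpa using (G_neg (by omega) (hy a).1).symm
    obtain ⟨k, rfl⟩ : ∃ k, n = k + j := ⟨n - j, by omega⟩
    have e : (((k + j + 1 : ℕ) : ℤ) - 1) = (k + j : ℕ) := by push_cast; ring
    rw [e] at hy ⊢
    by_cases hjk : 0 < k + j
    · obtain ⟨t, ht, hyt⟩ := descend R hjk hy hd
      obtain ⟨t', ht', e'⟩ := ih _ hyt
        (by rw [sub_vecMul, hd, vecMul_vecMul, dm_sq hR]; simp)
        (by rw [map_sub, ha, aug_d hβ]; simp)
      refine ⟨t + t', add_mem ht (Row_mono (by omega) ht'), ?_⟩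
      rw [add_vecMul, e']; abel
    · obtain ⟨rfl, rfl⟩ : k = 0 ∧ j = 0 := by omega
      refine ⟨0, zero_mem _, ?_⟩
      choose c hc using fun b => G_zero (u := y (0, b)) (by simpa using (hy (0, b)).1)
      have h0 : ∀ b, c b = 0 := by
        refine Fintype.linearIndependent_iff.mp hli c ?_
        rw [← ha, aug_apply]
        simp [hc]
      funext a
      obtain ⟨I, b⟩ := a
      by_cases hI : I = 0
      · subst hI; simp [hc, h0]
      · simpa using ((hy (I, b)).2 (by rwa [ne_eq, lab_zero])).symm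

theorem aug_pos (β : Fin N → M) {j : ℕ} {m : ℤ} {y : Ai N → U} (hy : y ∈ Row N (j + 1) m) :
    aug β y = 0 := by
  rw [aug_apply]
  refine Finset.sum_eq_zero fun b _ => ?_
  rw [(hy (0, b)).2 (by rw [(lab_zero 0).mpr rfl]; omega), zero_smul]

theorem row_exact' {R : Ix → Matrix (Fin N) (Fin N) ℚ} (hR : Gl R) {β : Fin N → M}
    (hβ : ∀ x a, E x • β a = ∑ b, R x b a • β b) (hli : LinearIndependent ℚ β) {j : ℕ} {m : ℤ}
    (hm : 0 ≤ m) {y : Ai N → U} (hy : y ∈ Row N j m) (hd : y ᵥ* dm R = 0) (ha : aug β y = 0) :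
    ∃ t ∈ Row N (j + 1) m, t ᵥ* dm R = y := by
  have e : m = ((m + 1).toNat : ℤ) - 1 := by omega
  rw [e] at hy ⊢
  exact row_exact hR hβ hli _ y hy hd ha

theorem aug_surj (β : Fin N → M) {m : ℤ} (hm : 0 ≤ m) {w : M}
    (hw : w ∈ Submodule.span ℚ (Set.range β)) : ∃ y ∈ Row N 0 m, aug β y = w := by
  obtain ⟨c, rfl⟩ := (Submodule.mem_span_range_iff_exists_fun ℚ).mp hw
  refine ⟨fun a => if a.1 = 0 then algebraMap ℚ U (c a.2) else 0, fun a => ⟨?_, fun h => ?_⟩, ?_⟩
  · dsimp only
    split_ifs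
    · exact alg_mem_G (by simpa using hm) _
    · exact zero_mem _
  · exact if_neg (by rwa [ne_eq, lab_zero] at h)
  · simp [aug_apply]

end Res

end Vale.Agent.P176
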