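import Mathlib

namespace Vale.Agent.P176

abbrev Ix := Fin 2 × Fin 2

/-- bit position of a generator -/
def bit (x : Ix) : ℕ := 2 * x.1.val + x.2.val

/-- number of one bits among the lowest four -/
def pop (n : ℕ) : ℕ := n % 2 + n / 2 % 2 + n / 4 % 2 + n / 8 % 2

/-- annihilation matrices on the exterior algebra of a four dimensional space -/
def an (x : Ix) (I J : Fin 16) : ℤ :=
  if I.val / 2 ^ bit x % 2 = 1 ∧ J.val + 2 ^ bit x = I.val then
    (if pop (I.val % 2 ^ bit x) % 2 = 0 then 1 else -1) else 0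

/-- structure constants of gl2 -/
def sc (x y z : Ix) : ℤ :=
  (if x.2 = y.1 ∧ z = (x.1, y.2) then 1 else 0) - (if y.2 = x.1 ∧ z = (y.1, x.2) then 1 else 0)

/-- the constant part of the Chevalley Eilenberg differential -/
def qq (I J : Fin 16) : ℤ :=
  match I.val, J.val with
  | 3, 2 => -1
  | 5, 4 => 1
  | 6, 1 => -1
  | 6, 8 => 1
  | 7, 9 => -1
  | 10, 2 => -1
  | 11, 3 => 1
  | 11, 10 => -1
  | 12, 4 => 1
  | 13, 5 => -1
  | 13, 12 => 1
  | 14, 9 => -1
  | _, _ => 0

def lab (I : Fin 16) : ℕ := pop I.val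

theorem car : ∀ x y : Ix, ∀ I J : Fin 16,
    (∑ K, (an y K I * an x K J + an x I K * an y J K)) = if x = y ∧ I = J then 1 else 0 := by
  decide +kernel

theorem num : ∀ I J : Fin 16,
    (∑ x, ∑ K, an x I K * an x J K) = if I = J then (lab I : ℤ) else 0 := by
  decide +kernel

theorem anti : ∀ x y : Ix, ∀ I J : Fin 16,
    (∑ K, (an x I K * an y K J + an y I K * an x K J)) = 0 := by
  decide +kernel

theorem qan : ∀ z : Ix, ∀ I J : Fin 16,
    (∑ x, ∑ y, sc x y z * ∑ K, an x I K * an y K J) +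
      2 * (∑ K, (an z I K * qq K J + qq I K * an z K J)) = 0 := by
  decide +kernel

theorem qsq : ∀ I J : Fin 16, (∑ K, qq I K * qq K J) = 0 := by
  decide +kernel

theorem an_lab : ∀ x : Ix, ∀ I J : Fin 16, an x I J = 0 ∨ lab I = lab J + 1 := by
  decide +kernel

theorem qq_lab : ∀ I J : Fin 16, qq I J = 0 ∨ lab I = lab J + 1 := by
  decide +kernel

theorem qq_zero : ∀ I : Fin 16, qq I 0 = 0 := by
  decide +kernel

theorem lab_le : ∀ I : Fin 16, lab I < 5 := by
  decide +kernel

theorem lab_zero : ∀ I : Fin 16, lab I = 0 ↔ I = 0 := by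
  decide +kernel

theorem lab_top : lab 15 = 4 := by
  decide +kernel

end Vale.Agent.P176
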