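import Mathlib

namespace Vale.Agent.P176

open CategoryTheory

variable {Λ : Type} [Ring Λ]

/-- projective dimension is less than k -/
def PL (Λ : Type) [Ring Λ] (N : Type) [AddCommGroup N] [Module Λ N] (k : ℕ) : Prop :=
  HasProjectiveDimensionLT (ModuleCat.of Λ N) k

theorem PL.mono {N : Type} [AddCommGroup N] [Module Λ N] {k l : ℕ} (h : PL Λ N k) (hkl : k ≤ l) :
    PL Λ N l := by
  unfold PL at h ⊢
  exact hasProjectiveDimensionLT_of_ge _ k l hkl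

theorem PL_one_iff {N : Type} [AddCommGroup N] [Module Λ N] : PL Λ N 1 ↔ Module.Projective Λ N := by
  rw [IsProjective.iff_projective, projective_iff_hasProjectiveDimensionLT_one]; rfl

theorem PL_zero {N : Type} [AddCommGroup N] [Module Λ N] [Subsingleton N] : PL Λ N 0 :=
  (ModuleCat.isZero_of_subsingleton (ModuleCat.of Λ N)).hasProjectiveDimensionLT_zero

/-- the relations between projective dimensions in a short exact sequence -/
structure Tri (a b c : ℕ → Prop) : Prop where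
  mid : ∀ n, a n → c n → b n
  rt : ∀ n, a n → b (n + 1) → c (n + 1)
  lf : ∀ n, b n → c (n + 1) → a n

variable {F Amb : Type} [AddCommGroup F] [Module Λ F] [AddCommGroup Amb] [Module Λ Amb]

theorem tri_of_map {B Z : Submodule Λ F} (h : B ≤ Z) (f : Z →ₗ[Λ] Amb) {Q : Submodule Λ Amb}
    (hr : ∀ w, w ∈ Q ↔ ∃ z, f z = w) (hk : ∀ z, f z = 0 ↔ (z : F) ∈ B) :
    Tri (PL Λ B) (PL Λ Z) (PL Λ Q) := by
  let g : Z →ₗ[Λ] Q := f.codRestrict Q fun z => (hr _).mpr ⟨z, rfl⟩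
  have hex : Function.Exact (Submodule.inclusion h) g := by
    intro z
    constructor
    · intro hz
      exact ⟨⟨z, (hk z).mp (congrArg Subtype.val hz)⟩, rfl⟩
    · rintro ⟨b, rfl⟩
      exact Subtype.ext ((hk _).mpr b.2)
  have hS := ModuleCat.shortComplex_shortExact
    (ModuleCat.shortComplexOfCompEqZero (Submodule.inclusion h) g hex.linearMap_comp_eq_zero) hex
    (Submodule.inclusion_injective h) (fun w => by
      obtain ⟨z, hz⟩ := (hr w).mp w.2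
      exact ⟨z, Subtype.ext hz⟩)
  exact ⟨fun n => hS.hasProjectiveDimensionLT_X₂ n, fun n => hS.hasProjectiveDimensionLT_X₃ n,
    fun n => hS.hasProjectiveDimensionLT_X₁ n⟩

theorem tri_of_rel {B Z : Submodule Λ F} (h : B ≤ Z) (Γ : Submodule Λ (F × Amb))
    {Q : Submodule Λ Amb} (h1 : ∀ x, x ∈ Z ↔ ∃ w, (x, w) ∈ Γ) (h2 : ∀ w, w ∈ Q ↔ ∃ x, (x, w) ∈ Γ)
    (h3 : ∀ x w, (x, w) ∈ Γ → (w = 0 ↔ x ∈ B)) : Tri (PL Λ B) (PL Λ Z) (PL Λ Q) := by
  choose φ hφ using fun z : Z => (h1 z).mp z.2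
  have uniq : ∀ (z : Z) w, ((z : F), w) ∈ Γ → φ z = w := by
    intro z w hw
    have := sub_mem (hφ z) hw
    rw [Prod.mk_sub_mk, sub_self] at this
    exact sub_eq_zero.mp ((h3 _ _ this).mpr (zero_mem _))
  let f : Z →ₗ[Λ] Amb :=
    { toFun := φ
      map_add' := fun x y => uniq _ _ (add_mem (hφ x) (hφ y))
      map_smul' := fun c x => uniq _ _ (Γ.smul_mem c (hφ x)) }
  refine tri_of_map h f (fun w => ?_) fun z => h3 _ _ (hφ z)
  rw [h2]
  constructor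
  · rintro ⟨x, hx⟩
    exact ⟨⟨x, (h1 x).mpr ⟨w, hx⟩⟩, uniq _ _ hx⟩
  · rintro ⟨z, rfl⟩
    exact ⟨z, hφ z⟩

/-- one step of the inductive construction -/
structure Step (M M' : ℕ → Prop) (b : ℕ → ℕ → Prop) : Prop where
  ex : ∃ (c : ℕ → ℕ → Prop) (z k : ℕ → Prop), (∀ j n, c j (n + 1)) ∧ b 4 0 ∧
    (∀ j, Tri (b (j + 2)) (c (j + 2)) (b (j + 1))) ∧ Tri z (c 1) (b 0) ∧ Tri (b 1) z M' ∧
    Tri (b 0) k M' ∧ Tri k (c 0) M
  mono : ∀ j n m, n ≤ m → b j n → b j m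
  mono' : ∀ n m, n ≤ m → M' n → M' m

theorem Step.b1 {M M' : ℕ → Prop} {b : ℕ → ℕ → Prop} (h : Step M M' b) : b 1 3 := by
  obtain ⟨c, z, k, hc, h4, t1, -⟩ := h.ex
  exact (t1 0).rt 2 ((t1 1).rt 1 ((t1 2).rt 0 h4 (hc _ _)) (hc _ _)) (hc _ _)

theorem Step.upper {M M' : ℕ → Prop} {b : ℕ → ℕ → Prop} (h : Step M M' b) {p : ℕ} (hp : 3 ≤ p)
    (h' : M' p) : M (p + 2) := by
  have b1 := h.b1
  obtain ⟨c, z, k, hc, h4, t1, t2, t3, t4, t5⟩ := h.ex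
  have hz : z p := t3.mid p (h.mono _ _ _ hp b1) h'
  have hb : b 0 (p + 1) := t2.rt p hz (hc _ _)
  have hk : k (p + 1) := t4.mid _ hb (h.mono' _ _ (by omega) h')
  exact t5.rt _ hk (hc _ _)

theorem Step.lower {M M' : ℕ → Prop} {b : ℕ → ℕ → Prop} (h : Step M M' b) {p : ℕ} (hp : 3 ≤ p)
    (h' : M' (p + 2)) (hM : M (p + 3)) : M' (p + 1) := by
  have b1 := h.b1
  obtain ⟨c, z, k, hc, h4, t1, t2, t3, t4, t5⟩ := h.ex
  have hk : k (p + 2) := t5.lf _ (hc _ _) hM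
  have hb : b 0 (p + 2) := t4.lf _ hk (h.mono' _ _ (by omega) h')
  have hz : z (p + 1) := t2.lf _ (hc _ _) hb
  exact t3.rt p (h.mono _ _ _ hp b1) hz

theorem Step.base {M M' : ℕ → Prop} {b : ℕ → ℕ → Prop} (h : Step M M' b)
    (h' : M' 0) (hM : M 4) : b 2 1 := by
  obtain ⟨c, z, k, hc, h4, t1, t2, t3, t4, t5⟩ := h.ex
  have hk : k 3 := t5.lf _ (hc _ _) hM
  have hb : b 0 3 := t4.lf _ hk (h.mono' _ _ (by omega) h')
  have hz : z 2 := t2.lf _ (hc _ _) hb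
  have hb1 : b 1 2 := t3.lf _ hz (h.mono' _ _ (by omega) h')
  exact (t1 0).lf 1 (hc _ _) hb1

theorem chain (M : ℕ → ℕ → Prop) (h0 : M 0 0) (hs : ∀ n, ∃ b, Step (M (n + 1)) (M n) b ∧ ¬ b 2 1)
    (n : ℕ) : M (n + 1) (2 * n + 5) ∧ ¬ M (n + 1) (2 * n + 4) := by
  induction n with
  | zero =>
    obtain ⟨b, hb, hn⟩ := hs 0
    exact ⟨hb.upper le_rfl (hb.mono' _ _ (by omega) h0), fun h => hn (hb.base h0 h)⟩
  | succ n ih =>
    obtain ⟨b, hb, -⟩ := hs (n + 1)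
    exact ⟨hb.upper (p := 2 * n + 5) (by omega) ih.1,
      fun h => ih.2 (hb.lower (p := 2 * n + 3) (by omega) ih.1 h)⟩

end Vale.Agent.P176
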