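import Vale.Agent.P176.Lam
import Vale.Agent.P176.Hom

namespace Vale.Agent.P176

open Matrix

variable {N : ℕ}

/-- the vertex attached to a generator -/
def vx (a : Ai N) : Fin 5 := ⟨lab a.1, lab_le _⟩

/-- a matrix with one nonzero column -/
noncomputable def col {ι : Type} (j : Fin 5) (z : ι → U) : Matrix ι (Fin 5) U :=
  fun i j' => if j' = j then z i else 0

theorem mul_col {ι κ : Type} [Fintype κ] (m : Matrix ι κ U) (j : Fin 5) (z : κ → U) :
    m * col j z = col j (m *ᵥ z) := by
  ext i k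
  simp only [mul_apply, col, mulVec, dotProduct]
  split_ifs <;> simp

theorem col_single {ι : Type} (j k : Fin 5) (z : ι → U) (u : U) :
    col j z * single j k u = col k fun i => z i * u := by
  ext i l
  simp only [mul_apply, col, single, of_apply]
  rw [Finset.sum_eq_single j]
  · by_cases h : k = l
    · simp [h]
    · simp [h, Ne.symm h]
  · intro b _ hb; simp [hb]
  · simp

theorem mul_single_one {ι : Type} (m : Matrix ι (Fin 5) U) (j : Fin 5) :
    m * single j j (1 : U) = col j fun i => m i j := by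
  ext i l
  simp only [mul_apply, col, single, of_apply]
  rw [Finset.sum_eq_single j]
  · by_cases h : j = l
    · simp [h]
    · simp [h, Ne.symm h]
  · intro b _ hb; simp [Ne.symm hb]
  · simp

theorem col_add {ι : Type} (j : Fin 5) (z z' : ι → U) : col j z + col j z' = col j (z + z') := by
  ext i k
  simp only [col, Matrix.add_apply, Pi.add_apply]
  split_ifs <;> simp

theorem col_sum {ι α : Type} (s : Finset α) (j : Fin 5) (z : α → ι → U) :
    ∑ a ∈ s, col j (z a) = col j fun i => ∑ a ∈ s, z a i := by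
  ext i k
  simp only [col, Matrix.sum_apply]
  split_ifs <;> simp

theorem col_zero {ι : Type} (j : Fin 5) : col j (fun _ : ι => 0) = 0 := by
  ext i k; simp [col]

theorem Row_add {ι : Type} {j : ℕ} {m : ℤ} {p q : Matrix ι (Ai N) U} {i : ι}
    (h : p i ∈ Row N j m) (h' : q i ∈ Row N j m) : (p + q) i ∈ Row N j m :=
  (show p i + q i ∈ Row N j m from add_mem h h')

theorem Row_smul {ι : Type} {j : ℕ} {m : ℤ} (c : ℚ) {p : Matrix ι (Ai N) U} {i : ι}
    (h : p i ∈ Row N j m) : (c • p) i ∈ Row N j m :=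
  (show c • p i ∈ Row N j m from Submodule.smul_mem _ c h)

theorem mul_row {ι : Type} (p : Matrix ι (Ai N) U) (m : Matrix (Ai N) (Ai N) U) (i : ι) :
    (p * m) i = p i ᵥ* m := rfl

abbrev MP (N : ℕ) := Matrix (Fin 5) (Ai N) U
abbrev MQ (N : ℕ) := Matrix I52 (Ai N) U

/-- families of rows indexed by the vertices -/
noncomputable def RP (N j : ℕ) : Submodule ℚ (MP N) where
  carrier := {p | ∀ i, p i ∈ Row N j i.val}
  zero_mem' := fun _ => zero_mem _
  add_mem' := by
    intro p q h h' i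
    have h1 := h i
    have h2 := h' i
    exact Row_add (p := p) (q := q) h1 h2
  smul_mem' := by
    intro c p h i
    have h1 := h i
    exact Row_smul c (p := p) h1

noncomputable def RQ (N j : ℕ) (c : ℤ) : Submodule ℚ (MQ N) where
  carrier := {q | ∀ i, q i ∈ Row N j (i.1.val + c)}
  zero_mem' := fun _ => zero_mem _
  add_mem' := by
    intro p q h h' i
    have h1 := h i
    have h2 := h' i
    exact Row_add (p := p) (q := q) h1 h2
  smul_mem' := by
    intro c p h i
    have h1 := h i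
    exact Row_smul c (p := p) h1

theorem Row_mem {j : ℕ} {m : ℤ} {y : Ai N → U} (h : y ∈ Row N j m) (a : Ai N) :
    y a ∈ G (m - (vx a).val) := by
  by_cases ha : lab a.1 = j
  · have := (h a).1
    rwa [← ha] at this
  · rw [(h a).2 ha]; exact zero_mem _

theorem colP {j : ℕ} {p : MP N} (h : p ∈ RP N j) (a : Ai N) : col (vx a) (fun i => p i a) ∈ Bs := by
  intro i k
  simp only [col]
  split_ifs with hk
  · subst hk; exact Row_mem (h i) a
  · exact zero_mem _

theorem colQ {j : ℕ} {c : ℤ} {q : MQ N} (h : q ∈ RQ N j c) (a : Ai N) :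
    col (vx a) (fun i => q i a) ∈ Ys c := by
  intro i k
  simp only [col]
  split_ifs with hk
  · subst hk; exact Row_mem (h i) a
  · exact zero_mem _

theorem mul_Row {ι κ : Type} [Fintype κ] {m : Matrix ι κ U} {p : Matrix κ (Ai N) U} {i : ι}
    {j : ℕ} {a b : κ → ℤ} {c : ℤ} (h : ∀ k, m i k ∈ G (a k)) (h' : ∀ k, p k ∈ Row N j (b k))
    (hc : ∀ k, a k + b k ≤ c) : (m * p) i ∈ Row N j c := by
  intro x
  refine ⟨mul_mem_G h (fun k => (h' k x).1) fun k => by have := hc k; omega, fun hx => ?_⟩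
  rw [mul_apply]
  exact Finset.sum_eq_zero fun k _ => by rw [(h' k x).2 hx, mul_zero]

theorem RP_left {j : ℕ} {b : MB} {p : MP N} (hb : b ∈ Bs) (hp : p ∈ RP N j) : b * p ∈ RP N j :=
  fun i => mul_Row (hb i) hp fun k => by dsimp only; omega

theorem RQ_left {j : ℕ} {c : ℤ} {b : MB} {q : MQ N} (hb : b ∈ Bs) (hq : q ∈ RQ N j c) :
    Dh b * q ∈ RQ N j c :=
  fun i => mul_Row (Dh_mem hb i) hq fun k => by omega

theorem RQ_y {j : ℕ} {c : ℤ} {y : MY} {p : MP N} (hy : y ∈ Ys c) (hp : p ∈ RP N j) :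
    y * p ∈ RQ N j c :=
  fun i => mul_Row (hy i) hp fun k => by dsimp only; omega

theorem RQ_g {j : ℕ} {t : MQ N} (ht : t ∈ RQ N j 0) : gh * t ∈ RQ N j 1 :=
  fun i => mul_Row (gh_mem i) ht fun k => by omega

theorem RP_d (R : Ix → Matrix (Fin N) (Fin N) ℚ) {j : ℕ} {p : MP N} (hp : p ∈ RP N (j + 1)) :
    p * dm R ∈ RP N j := fun i => by rw [mul_row]; exact Row_d R (hp i)

theorem RQ_d (R : Ix → Matrix (Fin N) (Fin N) ℚ) {j : ℕ} {c : ℤ} {q : MQ N}
    (hq : q ∈ RQ N (j + 1) c) : q * dm R ∈ RQ N j c := fun i => by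
  rw [mul_row]; exact Row_d R (hq i)

/-- parametrization of elements of the projective modules -/
noncomputable def mq (p : MP N) (q : MQ N) : Ai N → Lam :=
  fun a => el (col (vx a) fun i => p i a) (col (vx a) fun i => q i a)

theorem mk_add {j j' : ℕ} {p p' : MP N} {q q' : MQ N} (hp : p ∈ RP N j) (hq : q ∈ RQ N j 1)
    (hp' : p' ∈ RP N j') (hq' : q' ∈ RQ N j' 1) : mq p q + mq p' q' = mq (p + p') (q + q') := by
  funext a
  simp only [mq, Pi.add_apply]
  rw [el_add (colP hp a) (colQ hq a) (colP hp' a) (colQ hq' a), col_add, col_add]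
  rfl

theorem mk_zero : mq (0 : MP N) 0 = 0 := by
  funext a
  simp only [mq, Matrix.zero_apply, col_zero, el_zero, Pi.zero_apply]

theorem smul_mk {j : ℕ} {b : MB} {y : MY} {p : MP N} {q : MQ N} (hb : b ∈ Bs) (hy : y ∈ Ys 1)
    (hp : p ∈ RP N j) (hq : q ∈ RQ N j 1) : el b y • mq p q = mq (b * p) (Dh b * q + y * p) := by
  funext a
  simp only [mq, Pi.smul_apply, smul_eq_mul]
  rw [el_mul hb hy (colP hp a) (colQ hq a), mul_col, mul_col, mul_col, col_add]
  rfl

theorem mk_eq_zero {j : ℕ} {p : MP N} {q : MQ N} (hp : p ∈ RP N j) (hq : q ∈ RQ N j 1) :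
    mq p q = 0 ↔ p = 0 ∧ ∃ t ∈ RQ N j 0, q = gh * t := by
  constructor
  · intro h
    have h1 := fun a => (el_eq_zero (colP hp a) (colQ hq a)).mp (congrFun h a)
    choose t ht ht' using fun a => (h1 a).2
    have e : q = gh * (of fun i a => t a i (vx a) : MQ N) := by
      ext i a
      have := congrFun (congrFun (ht' a) i) (vx a)
      simpa [col, mul_apply] using this
    have hz : ∀ i a, lab a.1 ≠ j → t a i (vx a) = 0 := fun i a ha =>
      gh_inj_col (t := (of fun i a => t a i (vx a) : MQ N)) (a := a)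
        (fun i => by rw [← e]; exact (hq i a).2 ha) i
    refine ⟨?_, _, fun i a => ⟨?_, hz i a⟩, e⟩
    · ext i a
      simpa [col] using congrFun (congrFun (h1 a).1 i) (vx a)
    · by_cases ha : lab a.1 = j
      · have := ht a i (vx a)
        rw [← ha]; exact this
      · have := hz i a ha
        exact this ▸ zero_mem _
  · rintro ⟨rfl, t, ht, rfl⟩
    funext a
    refine (el_eq_zero (colP hp a) (colQ hq a)).mpr ⟨col_zero _, _, colQ ht a, ?_⟩
    rw [mul_col]; rfl

theorem mk_eq {j : ℕ} {p p' : MP N} {q q' : MQ N} (hp : p ∈ RP N j) (hq : q ∈ RQ N j 1)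
    (hp' : p' ∈ RP N j) (hq' : q' ∈ RQ N j 1) :
    mq p q = mq p' q' ↔ p = p' ∧ ∃ t ∈ RQ N j 0, q = q' + gh * t := by
  have h := mk_add (sub_mem hp hp') (sub_mem hq hq') hp' hq'
  rw [sub_add_cancel, sub_add_cancel] at h
  rw [← h, add_eq_right, mk_eq_zero (sub_mem hp hp') (sub_mem hq hq'), sub_eq_zero]
  simp only [sub_eq_iff_eq_add']

noncomputable def ee (i : Fin 5) : Lam := el (single i i 1) 0

theorem single_one_mem (i : Fin 5) : single i i (1 : U) ∈ Bs := Bs_single i i (one_mem_G (by simp))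

theorem ee_mul (i : Fin 5) : ee i * ee i = ee i := by
  rw [ee, el_mul (single_one_mem i) (zero_mem _) (single_one_mem i) (zero_mem _)]
  simp

noncomputable def idm (j : ℕ) (a : Ai N) : Lam := if lab a.1 = j then ee (vx a) else 0

noncomputable def prj (N j : ℕ) : (Ai N → Lam) →ₗ[Lam] (Ai N → Lam) where
  toFun x := fun a => x a * idm j a
  map_add' x y := by funext a; simp [add_mul]
  map_smul' c x := by funext a; simp [mul_assoc]

theorem prj_apply (j : ℕ) (x : Ai N → Lam) (a : Ai N) : prj N j x a = x a * idm j a := rfl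

theorem prj_prj (j : ℕ) (x : Ai N → Lam) : prj N j (prj N j x) = prj N j x := by
  funext a
  simp only [prj_apply, idm, mul_assoc]
  split_ifs <;> simp [ee_mul]

/-- the projective modules -/
noncomputable def Cm (N j : ℕ) : Submodule Lam (Ai N → Lam) := LinearMap.range (prj N j)

theorem Cm_proj (j : ℕ) : Module.Projective Lam (Cm N j) :=
  Module.Projective.of_split (Cm N j).subtype (prj N j).rangeRestrict (LinearMap.ext fun x => by
    obtain ⟨_, y, rfl⟩ := x
    exact Subtype.ext (prj_prj j y))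

theorem mk_mem {j : ℕ} {p : MP N} {q : MQ N} (hp : p ∈ RP N j) (hq : q ∈ RQ N j 1) :
    mq p q ∈ Cm N j := by
  refine ⟨mq p q, funext fun a => ?_⟩
  rw [prj_apply, idm]
  split_ifs with ha
  · rw [mq, ee, el_mul (colP hp a) (colQ hq a) (single_one_mem _) (zero_mem _), col_single,
      col_single]
    simp
  · have h1 : (fun i => p i a) = fun _ => 0 := funext fun i => (hp i a).2 ha
    have h2 : (fun i => q i a) = fun _ => 0 := funext fun i => (hq i a).2 ha
    rw [mq, h1, h2, col_zero, col_zero, el_zero, mul_zero]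

theorem mem_Cm {j : ℕ} {x : Ai N → Lam} :
    x ∈ Cm N j ↔ ∃ p ∈ RP N j, ∃ q ∈ RQ N j 1, x = mq p q := by
  constructor
  · rintro ⟨z, rfl⟩
    choose b hb y hy e using fun a => el_surj (z a)
    refine ⟨fun i a => if lab a.1 = j then b a i (vx a) else 0, fun i a => ⟨?_, fun h => if_neg h⟩,
      fun i a => if lab a.1 = j then y a i (vx a) else 0, fun i a => ⟨?_, fun h => if_neg h⟩, ?_⟩
    · dsimp only
      split_ifs with h
      · rw [← h]; exact hb a i (vx a)
      · exact zero_mem _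
    · dsimp only
      split_ifs with h
      · rw [← h]; exact hy a i (vx a)
      · exact zero_mem _
    · funext a
      rw [prj_apply, idm, e a]
      simp only [mq]
      split_ifs with h
      · rw [ee, el_mul (hb a) (hy a) (single_one_mem _) (zero_mem _), mul_single_one,
          mul_single_one]
        simp
      · rw [col_zero, col_zero, el_zero, mul_zero]
  · rintro ⟨p, hp, q, hq, rfl⟩
    exact mk_mem hp hq

theorem Cm_five : Cm N 5 = ⊥ := by
  rw [eq_bot_iff]
  rintro _ ⟨z, rfl⟩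
  funext a
  have := lab_le a.1
  rw [prj_apply, idm, if_neg (by omega), mul_zero]
  rfl

variable (R : Ix → Matrix (Fin N) (Fin N) ℚ)

theorem dm_single (a b : Ai N) : single (vx a) (vx b) (dm R a b) ∈ Bs := by
  refine Bs_single _ _ ?_
  by_cases h : lab a.1 = lab b.1 + 1
  · exact G_mono (by simp only [vx]; omega) (dm_mem R a b)
  · rw [dm_lab R h]; exact zero_mem _

noncomputable def DM : Matrix (Ai N) (Ai N) Lam := fun a b => el (single (vx a) (vx b) (dm R a b)) 0

/-- the differential of the induced complex -/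
noncomputable def DD : (Ai N → Lam) →ₗ[Lam] (Ai N → Lam) := vecMulLinear (DM R)

theorem DD_mk {j : ℕ} {p : MP N} {q : MQ N} (hp : p ∈ RP N j) (hq : q ∈ RQ N j 1) :
    DD R (mq p q) = mq (p * dm R) (q * dm R) := by
  funext b
  change ∑ a, mq p q a * DM R a b = _
  have : ∀ a, mq p q a * DM R a b = el (col (vx a) (fun i => p i a) * single (vx a) (vx b) (dm R a b))
      (col (vx a) (fun i => q i a) * single (vx a) (vx b) (dm R a b)) := fun a => by
    rw [mq, DM, el_mul (colP hp a) (colQ hq a) (dm_single R a b) (zero_mem _)]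
    simp
  simp only [this]
  rw [el_sum _ (fun a => Bs_mul (colP hp a) (dm_single R a b))
    (fun a => Ys_right (colQ hq a) (dm_single R a b))]
  simp only [col_single, col_sum]
  rfl

/-- boundaries -/
noncomputable def Bm (j : ℕ) : Submodule Lam (Ai N → Lam) := (Cm N (j + 1)).map (DD R)

theorem mem_Bm {j : ℕ} {x : Ai N → Lam} :
    x ∈ Bm R j ↔ ∃ p ∈ RP N (j + 1), ∃ q ∈ RQ N (j + 1) 1, x = mq (p * dm R) (q * dm R) := by
  constructor
  · rintro ⟨z, hz, rfl⟩
    obtain ⟨p, hp, q, hq, rfl⟩ := mem_Cm.mp hz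
    exact ⟨p, hp, q, hq, DD_mk R hp hq⟩
  · rintro ⟨p, hp, q, hq, rfl⟩
    exact ⟨_, mk_mem hp hq, DD_mk R hp hq⟩

theorem Bm_le (j : ℕ) : Bm R j ≤ Cm N j := by
  intro x hx
  obtain ⟨p, hp, q, hq, rfl⟩ := (mem_Bm R).mp hx
  exact mk_mem (RP_d R hp) (RQ_d R hq)

variable {R}

theorem DD_Bm (hR : Gl R) {j : ℕ} {x : Ai N → Lam} (hx : x ∈ Bm R j) : DD R x = 0 := by
  obtain ⟨p, hp, q, hq, rfl⟩ := (mem_Bm R).mp hx
  rw [DD_mk R (RP_d R hp) (RQ_d R hq), Matrix.mul_assoc, Matrix.mul_assoc, dm_sq hR,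
    Matrix.mul_zero, Matrix.mul_zero, mk_zero]

end Vale.Agent.P176
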