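import Vale.Agent.P176.Poly

namespace Vale.Agent.P176

open Matrix

abbrev I52 := Fin 5 × Fin 2
abbrev Idx := I52 ⊕ Fin 5
abbrev MB := Matrix (Fin 5) (Fin 5) U
abbrev MY := Matrix I52 (Fin 5) U

noncomputable def Dh : MB →ₐ[ℚ] Matrix I52 I52 U :=
  (compAlgEquiv (Fin 5) (Fin 2) U ℚ).toAlgHom.comp Dl.mapMatrix

theorem Dh_apply (b : MB) (i j : I52) : Dh b i j = Dl (b i.1 j.1) i.2 j.2 := rfl

noncomputable def gh : Matrix I52 I52 U := compAlgEquiv (Fin 5) (Fin 2) U ℚ (scalar (Fin 5) gg)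

theorem gh_apply (i j : I52) : gh i j = if i.1 = j.1 then gg i.2 j.2 else 0 := by
  simp only [gh, compAlgEquiv_apply, comp_apply, scalar_apply, diagonal_apply]
  split_ifs <;> rfl

theorem gh_comm (b : MB) : gh * Dh b = Dh b * gh := by
  have : scalar (Fin 5) gg * Dl.mapMatrix b = Dl.mapMatrix b * scalar (Fin 5) gg := by
    ext i j : 2
    simp [gg_comm]
  have h := congrArg (compAlgEquiv (Fin 5) (Fin 2) U ℚ) this
  rw [map_mul, map_mul] at h
  exact h

theorem gh_mul {κ : Type} (t : Matrix I52 κ U) (i : I52) (a : κ) :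
    (gh * t) i a = (gg *ᵥ fun s => t (i.1, s) a) i.2 := by
  simp only [mul_apply, gh_apply, Fintype.sum_prod_type, mulVec, dotProduct, ite_mul, zero_mul]
  rw [Finset.sum_eq_single i.1]
  · simp
  · intro j _ hj; simp [Ne.symm hj]
  · simp

theorem gh_inj_col {κ : Type} {t : Matrix I52 κ U} {a : κ} (h : ∀ i, (gh * t) i a = 0) (i : I52) :
    t i a = 0 := by
  have : (fun s => t (i.1, s) a) = 0 := gg_inj (funext fun s => by
    have := h (i.1, s)
    rwa [gh_mul] at this)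
  exact congrFun this i.2

theorem gh_inj {κ : Type} {t : Matrix I52 κ U} (h : gh * t = 0) : t = 0 := by
  ext i a
  exact gh_inj_col (fun i => by rw [h]; rfl) i

theorem mul_mem_G {ι κ μ : Type} [Fintype κ] {m : Matrix ι κ U} {m' : Matrix κ μ U} {i : ι} {k : μ}
    {a b : κ → ℤ} {c : ℤ} (h : ∀ j, m i j ∈ G (a j)) (h' : ∀ j, m' j k ∈ G (b j))
    (hc : ∀ j, a j + b j ≤ c) : (m * m') i k ∈ G c := by
  rw [mul_apply]
  exact Submodule.sum_mem _ fun j _ => G_mul (h j) (h' j) (hc j)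

/-- matrices with prescribed degree bounds -/
noncomputable def Dg {ι κ : Type} (f : ι → κ → ℤ) : Submodule ℚ (Matrix ι κ U) where
  carrier := {m | ∀ i j, m i j ∈ G (f i j)}
  zero_mem' := fun _ _ => zero_mem _
  add_mem' := fun h h' i j => add_mem (h i j) (h' i j)
  smul_mem' := fun c _ h i j => Submodule.smul_mem _ c (h i j)

noncomputable def Bs : Submodule ℚ MB := Dg fun i j => (i.val : ℤ) - j.val
noncomputable def Ys (c : ℤ) : Submodule ℚ MY := Dg fun i j => (i.1.val : ℤ) + c - j.val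

theorem Bs_mul {b b' : MB} (h : b ∈ Bs) (h' : b' ∈ Bs) : b * b' ∈ Bs :=
  fun i k => mul_mem_G (h i) (fun j => h' j k) fun j => by dsimp only; omega

theorem Bs_single (i j : Fin 5) {u : U} (h : u ∈ G ((i.val : ℤ) - j.val)) : single i j u ∈ Bs := by
  intro i' j'
  rw [single, of_apply]
  split_ifs with h1
  · obtain ⟨rfl, rfl⟩ := h1; exact h
  · exact zero_mem _

theorem Bs_one : (1 : MB) ∈ Bs := by
  intro i j
  rw [one_apply]
  split_ifs with h
  · subst h; exact one_mem_G (by simp)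
  · exact zero_mem _

theorem Dh_mem {b : MB} (h : b ∈ Bs) (i j : I52) : Dh b i j ∈ G ((i.1.val : ℤ) - j.1.val) :=
  Dl_mem (h i.1 j.1) _ _

theorem gh_mem (i j : I52) : gh i j ∈ G ((i.1.val : ℤ) + 1 - j.1.val) := by
  rw [gh_apply]
  split_ifs with h
  · rw [h]; simpa using gg_mem i.2 j.2
  · exact zero_mem _

theorem Ys_left {b : MB} {c : ℤ} {y : MY} (h : b ∈ Bs) (h' : y ∈ Ys c) : Dh b * y ∈ Ys c :=
  fun i k => mul_mem_G (Dh_mem h i) (fun j => h' j k) fun j => by dsimp only; omega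

theorem Ys_right {b : MB} {c : ℤ} {y : MY} (h' : y ∈ Ys c) (h : b ∈ Bs) : y * b ∈ Ys c :=
  fun i k => mul_mem_G (h' i) (fun j => h j k) fun j => by dsimp only; omega

theorem Ys_g {y : MY} (h' : y ∈ Ys 0) : gh * y ∈ Ys 1 :=
  fun i k => mul_mem_G (gh_mem i) (fun j => h' j k) fun j => by dsimp only; omega

noncomputable def blk (b : MB) (y : MY) : Matrix Idx Idx U := fromBlocks (Dh b) y 0 b

theorem blk_mul (b b' : MB) (y y' : MY) :
    blk b y * blk b' y' = blk (b * b') (Dh b * y' + y * b') := by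
  simp [blk, fromBlocks_multiply]

theorem blk_add (b b' : MB) (y y' : MY) : blk b y + blk b' y' = blk (b + b') (y + y') := by
  simp [blk, fromBlocks_add]

theorem blk_smul (c : ℚ) (b : MB) (y : MY) : c • blk b y = blk (c • b) (c • y) := by
  simp [blk, fromBlocks_smul]

theorem blk_one : blk 1 0 = 1 := by simp [blk]

theorem blk_zero : blk 0 0 = 0 := by simp [blk]

theorem blk_inj {b b' : MB} {y y' : MY} (h : blk b y = blk b' y') : b = b' ∧ y = y' := by
  have := fromBlocks_inj.mp h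
  exact ⟨this.2.2.2, this.2.1⟩

/-- the algebra of block matrices -/
noncomputable def Lt : Subalgebra ℚ (Matrix Idx Idx U) where
  carrier := {z | ∃ b ∈ Bs, ∃ y ∈ Ys 1, z = blk b y}
  mul_mem' := by
    rintro _ _ ⟨b, hb, y, hy, rfl⟩ ⟨b', hb', y', hy', rfl⟩
    exact ⟨_, Bs_mul hb hb', _, add_mem (Ys_left hb hy') (Ys_right hy hb'), blk_mul _ _ _ _⟩
  add_mem' := by
    rintro _ _ ⟨b, hb, y, hy, rfl⟩ ⟨b', hb', y', hy', rfl⟩
    exact ⟨_, add_mem hb hb', _, add_mem hy hy', blk_add _ _ _ _⟩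
  algebraMap_mem' := fun c => ⟨c • 1, Submodule.smul_mem _ _ Bs_one, 0, zero_mem _, by
    rw [Algebra.algebraMap_eq_smul_one, ← blk_one, blk_smul, smul_zero]⟩

noncomputable def Kid : Ideal Lt where
  carrier := {z | ∃ t ∈ Ys 0, z.1 = blk 0 (gh * t)}
  zero_mem' := ⟨0, zero_mem _, by simp [blk_zero]⟩
  add_mem' := by
    rintro z z' ⟨t, ht, h⟩ ⟨t', ht', h'⟩
    exact ⟨t + t', add_mem ht ht', by rw [Subalgebra.coe_add, h, h', blk_add, add_zero, Matrix.mul_add]⟩
  smul_mem' := by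
    rintro ⟨_, b, hb, y, hy, rfl⟩ z ⟨t, ht, h⟩
    refine ⟨Dh b * t, Ys_left hb ht, ?_⟩
    rw [smul_eq_mul, Subalgebra.coe_mul, h, blk_mul, ← Matrix.mul_assoc, ← Matrix.mul_assoc, gh_comm]
    simp

instance : Kid.IsTwoSided := ⟨by
  rintro z ⟨_, b, hb, y, hy, rfl⟩ ⟨t, ht, h⟩
  refine ⟨t * b, Ys_right ht hb, ?_⟩
  rw [Subalgebra.coe_mul, h, blk_mul, Matrix.mul_assoc]
  simp⟩

/-- the finite dimensional algebra -/
def Lam : Type := Lt ⧸ Kid

noncomputable instance : Ring Lam := inferInstanceAs (Ring (Lt ⧸ Kid))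
noncomputable instance : Algebra ℚ Lam := inferInstanceAs (Algebra ℚ (Lt ⧸ Kid))

noncomputable def mkL : Lt →ₐ[ℚ] Lam := Ideal.Quotient.mkₐ ℚ Kid

theorem mkL_surj : Function.Surjective mkL := Ideal.Quotient.mkₐ_surjective ℚ Kid

theorem mkL_eq_zero (z : Lt) : mkL z = 0 ↔ z ∈ Kid := Ideal.Quotient.eq_zero_iff_mem

instance : Module.Finite ℚ Lt := by
  have h1 : (Submodule.pi Set.univ fun _ : Idx => Submodule.pi Set.univ fun _ : Idx => G 5).FG :=
    Submodule.fg_pi fun _ => Submodule.fg_pi fun _ => G_fg 5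
  have h1' : (Dg fun _ _ : Idx => (5 : ℤ)).FG := by
    have e : (Dg fun _ _ : Idx => (5 : ℤ)) =
        (Submodule.pi Set.univ fun _ : Idx => Submodule.pi Set.univ fun _ : Idx => G 5) :=
      Submodule.ext fun m => ⟨fun h i _ j _ => h i j, fun h i j => h i trivial j trivial⟩
    rw [e]; exact h1
  have h2 : Module.Finite ℚ (Dg fun _ _ : Idx => (5 : ℤ)) := Module.Finite.of_fg h1'
  have h3 : Subalgebra.toSubmodule Lt ≤ (Dg fun _ _ : Idx => (5 : ℤ)) := by
    rintro _ ⟨b, hb, y, hy, rfl⟩ i j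
    rcases i with i | i <;> rcases j with j | j
    · exact G_mono (by have := i.1.2; dsimp only; omega) (Dh_mem hb i j)
    · exact G_mono (by have := i.1.2; dsimp only; omega) (hy i j)
    · exact zero_mem _
    · exact G_mono (by have := i.2; dsimp only; omega) (hb i j)
  exact Module.Finite.of_injective (Submodule.inclusion h3) (Submodule.inclusion_injective h3)

instance : Module.Finite ℚ Lam := Module.Finite.of_surjective mkL.toLinearMap mkL_surj

open Classical in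
noncomputable def el (b : MB) (y : MY) : Lam :=
  if h : b ∈ Bs ∧ y ∈ Ys 1 then mkL ⟨blk b y, b, h.1, y, h.2, rfl⟩ else 0

theorem el_eq {b : MB} {y : MY} (hb : b ∈ Bs) (hy : y ∈ Ys 1) :
    el b y = mkL ⟨blk b y, b, hb, y, hy, rfl⟩ := dif_pos ⟨hb, hy⟩

theorem el_surj (x : Lam) : ∃ b ∈ Bs, ∃ y ∈ Ys 1, x = el b y := by
  obtain ⟨⟨_, b, hb, y, hy, rfl⟩, rfl⟩ := mkL_surj x
  exact ⟨b, hb, y, hy, (el_eq hb hy).symm⟩

theorem el_mul {b b' : MB} {y y' : MY} (hb : b ∈ Bs) (hy : y ∈ Ys 1) (hb' : b' ∈ Bs)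
    (hy' : y' ∈ Ys 1) : el b y * el b' y' = el (b * b') (Dh b * y' + y * b') := by
  rw [el_eq hb hy, el_eq hb' hy', el_eq (Bs_mul hb hb') (add_mem (Ys_left hb hy') (Ys_right hy hb')),
    ← map_mul]
  exact congrArg mkL (Subtype.ext (blk_mul _ _ _ _))

theorem el_add {b b' : MB} {y y' : MY} (hb : b ∈ Bs) (hy : y ∈ Ys 1) (hb' : b' ∈ Bs)
    (hy' : y' ∈ Ys 1) : el b y + el b' y' = el (b + b') (y + y') := by
  rw [el_eq hb hy, el_eq hb' hy', el_eq (add_mem hb hb') (add_mem hy hy'), ← map_add]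
  exact congrArg mkL (Subtype.ext (blk_add _ _ _ _))

theorem el_eq_zero {b : MB} {y : MY} (hb : b ∈ Bs) (hy : y ∈ Ys 1) :
    el b y = 0 ↔ b = 0 ∧ ∃ t ∈ Ys 0, y = gh * t := by
  rw [el_eq hb hy, mkL_eq_zero]
  constructor
  · rintro ⟨t, ht, h⟩
    exact ⟨(blk_inj h).1, t, ht, (blk_inj h).2⟩
  · rintro ⟨rfl, t, ht, rfl⟩
    exact ⟨t, ht, rfl⟩

theorem el_zero : el 0 0 = 0 :=
  (el_eq_zero (zero_mem _) (zero_mem _)).mpr ⟨rfl, 0, zero_mem _, by simp⟩

theorem el_sum {α : Type} (s : Finset α) {b : α → MB} {y : α → MY} (hb : ∀ a, b a ∈ Bs)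
    (hy : ∀ a, y a ∈ Ys 1) : ∑ a ∈ s, el (b a) (y a) = el (∑ a ∈ s, b a) (∑ a ∈ s, y a) := by
  classical
  induction s using Finset.induction_on with
  | empty => simp [el_zero]
  | insert a s ha ih =>
    rw [Finset.sum_insert ha, Finset.sum_insert ha, Finset.sum_insert ha, ih,
      el_add (hb a) (hy a) (Submodule.sum_mem _ fun a _ => hb a) (Submodule.sum_mem _ fun a _ => hy a)]

noncomputable def rho0 : Lt →ₐ[ℚ] MB := AlgHom.ofLinearMap
  { toFun := fun z => z.1.toBlocks₂₂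
    map_add' := fun _ _ => rfl
    map_smul' := fun _ _ => rfl }
  (by
    change (1 : Matrix Idx Idx U).toBlocks₂₂ = 1
    rw [← blk_one]; rfl)
  (by
    rintro ⟨_, b, hb, y, hy, rfl⟩ ⟨_, b', hb', y', hy', rfl⟩
    change (blk b y * blk b' y').toBlocks₂₂ = _
    rw [blk_mul]; rfl)

/-- the projection to the window algebra -/
noncomputable def rho : Lam →ₐ[ℚ] MB := Ideal.Quotient.liftₐ Kid rho0 (by
  rintro z ⟨t, ht, h⟩
  change z.1.toBlocks₂₂ = 0
  rw [h]; rfl)

theorem rho_el {b : MB} {y : MY} (hb : b ∈ Bs) (hy : y ∈ Ys 1) : rho (el b y) = b := by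
  rw [el_eq hb hy]; rfl

theorem rho_mem (x : Lam) : rho x ∈ Bs := by
  obtain ⟨b, hb, y, hy, rfl⟩ := el_surj x
  rwa [rho_el hb hy]

theorem chi_mul (x y : Lam) : rho (x * y) 4 4 = rho x 4 4 * rho y 4 4 := by
  rw [map_mul, mul_apply, Finset.sum_eq_single 4]
  · intro j _ hj
    have : j.val < 4 := by
      have := j.2
      have : j.val ≠ 4 := fun h => hj (Fin.ext h)
      omega
    rw [G_neg (by simp; omega) (rho_mem y j 4), mul_zero]
  · simp

noncomputable def mvH : MB →ₐ[ℚ] Module.End ℚ (Fin 5 → Pl) := AlgHom.ofLinearMap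
  { toFun := mv
    map_add' := fun b c => LinearMap.ext fun w => mv_add b c w
    map_smul' := fun c b => LinearMap.ext fun w => by
      funext i; simp [mv_apply, Finset.smul_sum] }
  (LinearMap.ext fun w => mv_one w) fun b c => LinearMap.ext fun w => by
    rw [Module.End.mul_apply]; exact mv_mul b c w

noncomputable instance : Module Lam (Fin 5 → Pl) := Module.compHom _ (mvH.comp rho).toRingHom

theorem lam_smul (x : Lam) (w : Fin 5 → Pl) : x • w = mv (rho x) w := rfl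

instance : IsScalarTower ℚ Lam (Fin 5 → Pl) := ⟨fun c x w => by
  change (mvH.comp rho) (c • x) w = c • (mvH.comp rho) x w
  rw [map_smul]; rfl⟩

/-- the modules of large finite projective dimension -/
noncomputable def Mt (n : ℕ) : Submodule Lam (Fin 5 → Pl) where
  carrier := {w | ∀ i, w i ∈ W n}
  zero_mem' := fun _ => zero_mem _
  add_mem' := fun h h' i => add_mem (h i) (h' i)
  smul_mem' := fun x _ h i => mv_mem (rho x) h i

instance (n : ℕ) : Module.Finite Lam (Mt n) := by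
  let f : Mt n →ₗ[ℚ] (Fin 5 → W n) :=
    { toFun := fun w i => ⟨w.1 i, w.2 i⟩
      map_add' := fun _ _ => rfl
      map_smul' := fun _ _ => rfl }
  have : Module.Finite ℚ (Mt n) := Module.Finite.of_injective f fun w w' h =>
    Subtype.ext (funext fun i => congrArg Subtype.val (congrFun h i))
  exact Module.Finite.of_restrictScalars_finite ℚ Lam (Mt n)

instance : Subsingleton (Mt 0) := ⟨fun a b => Subtype.ext (funext fun i => by
  have h1 : a.1 i = 0 := a.2 i
  have h2 : b.1 i = 0 := b.2 i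
  rw [h1, h2])⟩

/-- componentwise divergence -/
noncomputable def dvh : (I52 → Pl) →ₗ[ℚ] (Fin 5 → Pl) where
  toFun w := fun i => dv fun s => w (i, s)
  map_add' w w' := by funext i; exact map_add dv _ _
  map_smul' c w := by funext i; exact map_smul dv _ _

theorem dvh_apply (w : I52 → Pl) (i : Fin 5) : dvh w i = dv fun s => w (i, s) := rfl

theorem dvh_Dh (b : MB) (w : I52 → Pl) : dvh (mv (Dh b) w) = mv b (dvh w) := by
  funext i
  have : (fun s => mv (Dh b) w (i, s)) = ∑ j, mv (Dl (b i j)) fun s => w (j, s) := by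
    funext s
    simp [mv_apply, Dh_apply, Fintype.sum_prod_type]
  rw [dvh_apply, this, map_sum, mv_apply]
  simp only [dv_Dl, dvh_apply]

theorem mv_gh (w : I52 → Pl) (i : I52) : mv gh w i = mv gg (fun s => w (i.1, s)) i.2 := by
  simp only [mv_apply, gh_apply, Fintype.sum_prod_type, ite_smul, zero_smul]
  rw [Finset.sum_eq_single i.1]
  · simp
  · intro j _ hj; simp [Ne.symm hj]
  · simp

theorem dvh_gh {n : ℕ} {w : I52 → Pl} (hw : ∀ i, w i ∈ W (n + 1)) : dvh (mv gh w) = 0 := by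
  funext i
  rw [dvh_apply]
  simp only [mv_gh]
  exact dv_gg fun s => hw (i, s)

theorem mv_gh_of {n : ℕ} {w : I52 → Pl} (hw : ∀ i, w i ∈ W (n + 1)) (h : dvh w = 0) :
    mv gh w = -((n : ℚ) + 1) • w := by
  funext i
  rw [mv_gh, mv_gg fun s => hw (i.1, s), ← dvh_apply, h]
  simp [neg_smul, -neg_add_rev]

theorem exists_io {n : ℕ} {w : Fin 5 → Pl} (hw : w ∈ Mt n) :
    ∃ u : I52 → Pl, (∀ i, u i ∈ W (n + 1)) ∧ dvh u = w ∧ mv gh u = 0 := by
  have hc : ((n : ℚ) + 1) ≠ 0 := by positivity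
  have h1 : ∀ i : I52, MvPolynomial.X (i.2, ()) * (((n : ℚ) + 1)⁻¹ • w i.1) ∈ W (n + 1) :=
    fun i => X_mem (Submodule.smul_mem _ _ (hw i.1)) i.2
  have h2 : ∀ i, dv (fun s => MvPolynomial.X (s, ()) * (((n : ℚ) + 1)⁻¹ • w i)) = w i := fun i => by
    rw [dv_X (Submodule.smul_mem _ _ (hw i)), smul_smul, mul_inv_cancel₀ hc, one_smul]
  refine ⟨_, h1, funext h2, ?_⟩
  funext i
  rw [mv_gh, mv_gg fun s => h1 (i.1, s), h2, ← mul_smul_comm, smul_smul, mul_inv_cancel₀ hc,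
    one_smul, sub_self]
  rfl

end Vale.Agent.P176
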