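import Vale.Agent.P176.CE

namespace Vale.Agent.P176

open MvPolynomial Matrix

abbrev Pl := MvPolynomial (Fin 2 × Unit) ℚ

noncomputable def act : U →ₐ[ℚ] Module.End ℚ Pl := liftU pol gl_pol

noncomputable instance : Module U Pl := Module.compHom Pl act.toRingHom

theorem smul_def (u : U) (p : Pl) : u • p = act u p := rfl

instance : IsScalarTower ℚ U Pl := ⟨fun c u p => by simp [smul_def]⟩
instance : SMulCommClass ℚ U Pl := ⟨fun c u p => by simp [smul_def]⟩

theorem E_smul' (x : Ix) (p : Pl) : E x • p = pol x p := by rw [smul_def, act, liftU_E]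

theorem E_smul (x : Ix) (p : Pl) : E x • p = X (x.1, ()) * pderiv (x.2, ()) p := by
  rw [E_smul', pol_apply]; simp

/-- symmetric powers, shifted by one -/
noncomputable def W : ℕ → Submodule ℚ Pl
  | 0 => ⊥
  | n + 1 => homogeneousSubmodule _ ℚ n

theorem W_smul {n : ℕ} (u : U) {p : Pl} (hp : p ∈ W n) : u • p ∈ W n := by
  induction u using U_ind generalizing p with
  | h1 c => rw [algebraMap_smul]; exact Submodule.smul_mem _ _ hp
  | hE x =>
    rcases n with _ | n
    · obtain rfl : p = 0 := hp
      simp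
    · rw [E_smul']; exact pol_hom x hp
  | hm a b h h' => rw [mul_smul]; exact h (h' hp)
  | ha a b h h' => rw [add_smul]; exact add_mem (h hp) (h' hp)

instance (n : ℕ) : Module.Finite ℚ (W n) := by
  rcases n with _ | n
  · exact Module.Finite.bot ℚ Pl
  · have : W (n + 1) ≤ restrictTotalDegree (Fin 2 × Unit) ℚ n := fun p hp =>
      (mem_restrictTotalDegree _ _ _).mpr (IsHomogeneous.totalDegree_le hp)
    exact Submodule.finiteDimensional_of_le this

theorem exists_basis (n : ℕ) : ∃ (N : ℕ) (R : Ix → Matrix (Fin N) (Fin N) ℚ) (β : Fin N → Pl),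
    Gl R ∧ (∀ x a, E x • β a = ∑ b, R x b a • β b) ∧ LinearIndependent ℚ β ∧
    Submodule.span ℚ (Set.range β) = W n := by
  let b := Module.finBasis ℚ (W n)
  let r : U →ₐ[ℚ] Module.End ℚ (W n) := AlgHom.ofLinearMap
    { toFun := fun u => (act u).restrict (p := W n) (q := W n) fun p hp => W_smul u hp
      map_add' := fun u v => by ext p; simp
      map_smul' := fun u v => by ext p; simp }
    (by ext p; simp) (fun u v => by ext p; simp)
  have hr : ∀ u (p : W n), (r u p : Pl) = u • (p : Pl) := fun u p => rfl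
  refine ⟨_, fun x => LinearMap.toMatrixAlgEquiv b (r (E x)), fun a => b a, fun x y => ?_,
    fun x a => ?_, b.linearIndependent.map' (W n).subtype (by simp), ?_⟩
  · have := congrArg (fun u => LinearMap.toMatrixAlgEquiv b (r u)) (gl_E x y)
    simp only [map_sub, map_mul] at this
    rw [this]
    split_ifs <;> simp only [map_zero]
  · rw [← hr]
    have := congrArg (W n).subtype (b.sum_repr (r (E x) (b a)))
    rw [map_sum] at this
    simp only [LinearMap.toMatrixAlgEquiv_apply]
    exact this.symm
  · have := congrArg (Submodule.map (W n).subtype) b.span_eq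
    rw [Submodule.map_span, Submodule.map_subtype_top, ← Set.range_comp] at this
    exact this

def R0 (x : Ix) : Matrix (Fin 2) (Fin 2) ℚ := single x.1 x.2 1

theorem gl_R0 : Gl R0 := by
  rintro ⟨i, j⟩ ⟨k, l⟩
  ext a b
  fin_cases i <;> fin_cases j <;> fin_cases k <;> fin_cases l <;> fin_cases a <;> fin_cases b <;>
    simp [R0, Matrix.mul_apply, single]

/-- tensoring with the dual of the natural representation -/
noncomputable def Dl : U →ₐ[ℚ] Matrix (Fin 2) (Fin 2) U := liftU (tw R0) (gl_tw gl_R0)

theorem Dl_E (x : Ix) (s t : Fin 2) :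
    Dl (E x) s t = (if s = t then E x else 0) - if x.1 = t ∧ x.2 = s then 1 else 0 := by
  rw [Dl, liftU_E]
  simp only [tw, R0, Matrix.sub_apply, scalar_apply, diagonal_apply, map_apply, transpose_apply,
    single, of_apply]
  split_ifs <;> simp

theorem Dl_mem {k : ℤ} {u : U} (hu : u ∈ G k) (s t : Fin 2) : Dl u s t ∈ G k := by
  refine G_ind (P := fun u => ∀ s t, Dl u s t ∈ G k) (by simp) (fun l hl => ?_) ?_ ?_ hu s t
  · have : ∀ s t, Dl (mon l) s t ∈ G l.length := by
      clear hl
      induction l with
      | nil =>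
        intro s t
        simp only [mon_nil, map_one, one_apply]
        split_ifs
        · exact one_mem_G (by simp)
        · exact zero_mem _
      | cons x l ih =>
        intro s t
        rw [mon_cons, map_mul, mul_apply]
        refine Submodule.sum_mem _ fun r _ => G_mul (a := 1) ?_ (ih r t) (by simp; omega)
        rw [Dl_E]
        refine sub_mem ?_ ?_ <;> split_ifs
        · exact E_mem le_rfl x
        · exact zero_mem _
        · exact one_mem_G (by simp)
        · exact zero_mem _
    exact fun s t => G_mono hl (this s t)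
  · intro a b ha hb s t
    rw [map_add]; exact add_mem (ha s t) (hb s t)
  · intro c a ha s t
    rw [map_smul]; exact Submodule.smul_mem _ c (ha s t)

/-- the natural endomorphism of the tensor functor -/
noncomputable def gg : Matrix (Fin 2) (Fin 2) U :=
  fun s t => E (s, t) - if s = t then E (0, 0) + E (1, 1) + 1 else 0

theorem gg_mem (s t : Fin 2) : gg s t ∈ G 1 := by
  refine sub_mem (E_mem le_rfl _) ?_
  split_ifs
  · exact add_mem (add_mem (E_mem le_rfl _) (E_mem le_rfl _)) (one_mem_G (by simp))
  · exact zero_mem _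

theorem gg_comm (u : U) : gg * Dl u = Dl u * gg := by
  induction u using U_ind with
  | h1 c => rw [AlgHom.commutes, Algebra.commutes]
  | hE x =>
    obtain ⟨k, l⟩ := x
    ext i j
    have h1 := gl_E (i, j) (k, l)
    have h2 := gl_E (0, 0) (k, l)
    have h3 := gl_E (1, 1) (k, l)
    fin_cases i <;> fin_cases j <;> fin_cases k <;> fin_cases l <;>
      simp [mul_apply, Fin.sum_univ_two, gg, Dl_E] at h1 h2 h3 ⊢ <;>
      first
        | (linear_combination (norm := noncomm_ring) h1; done)
        | (linear_combination (norm := noncomm_ring) - h3; done)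
        | (linear_combination (norm := noncomm_ring) - h2; done)
        | (linear_combination (norm := noncomm_ring) h1 - h2 - h3; done)
  | hm a b h h' => rw [map_mul, ← mul_assoc, h, mul_assoc, h', mul_assoc]
  | ha a b h h' => rw [map_add, mul_add, add_mul, h, h']

theorem gg_inj {t : Fin 2 → U} (h : gg *ᵥ t = 0) : t = 0 := by
  obtain ⟨n, hn⟩ : ∃ n : ℕ, ∀ s, t s ∈ G ((n : ℤ) - 1) := by
    obtain ⟨a, ha⟩ := exists_G (t 0)
    obtain ⟨b, hb⟩ := exists_G (t 1)
    refine ⟨a + b + 1, fun s => ?_⟩
    fin_cases s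
    · exact G_mono (by simp) ha
    · exact G_mono (by simp) hb
  induction n with
  | zero => funext s; exact G_neg (by simp) (hn s)
  | succ n ih =>
    apply ih
    have hn' : ∀ s, t s ∈ G n := fun s => by simpa using hn s
    have hl : ∀ s, sym (n + 1) (t s) = 0 := fun s => sym_low (by simpa using hn' s)
    have h0 := congrArg (sym (n + 1)) (congrFun h 0)
    have h1 := congrArg (sym (n + 1)) (congrFun h 1)
    simp [mulVec, dotProduct, Fin.sum_univ_two, gg, sub_mul, add_mul, sym_E (hn' _), hl] at h0 h1
    have hdet : (X (0, 0) * X (1, 1) - X (0, 1) * X (1, 0) : S) ≠ 0 := by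
      intro h
      have := congrArg (eval fun x : Ix => if x.1 = x.2 then (1 : ℚ) else 0) h
      simp at this
    have e0 : sym n (t 0) = 0 := by
      refine (mul_eq_zero.mp ?_).resolve_left hdet
      linear_combination - X (0, 0) * h0 - X (0, 1) * h1
    have e1 : sym n (t 1) = 0 := by
      refine (mul_eq_zero.mp ?_).resolve_left hdet
      linear_combination - X (1, 0) * h0 - X (1, 1) * h1
    intro s
    fin_cases s
    · exact low_of_sym (hn' 0) e0
    · exact low_of_sym (hn' 1) e1

/-- a matrix over U acting on a vector of polynomials -/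
noncomputable def mv {ι κ : Type} [Fintype κ] (b : Matrix ι κ U) : (κ → Pl) →ₗ[ℚ] (ι → Pl) where
  toFun w := fun i => ∑ j, b i j • w j
  map_add' w w' := by funext i; simp [Finset.sum_add_distrib]
  map_smul' c w := by funext i; simp [Finset.smul_sum, smul_comm c]

theorem mv_apply {ι κ : Type} [Fintype κ] (b : Matrix ι κ U) (w : κ → Pl) (i : ι) :
    mv b w i = ∑ j, b i j • w j := rfl

theorem mv_mul {ι κ μ : Type} [Fintype κ] [Fintype μ] (b : Matrix ι κ U) (c : Matrix κ μ U)
    (w : μ → Pl) : mv (b * c) w = mv b (mv c w) := by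
  funext i
  simp only [mv_apply, mul_apply, Finset.sum_smul, Finset.smul_sum, mul_smul]
  exact Finset.sum_comm

theorem mv_add {ι κ : Type} [Fintype κ] (b c : Matrix ι κ U) (w : κ → Pl) :
    mv (b + c) w = mv b w + mv c w := by
  funext i; simp [mv_apply, add_smul, Finset.sum_add_distrib]

theorem mv_zero {ι κ : Type} [Fintype κ] (w : κ → Pl) : mv (0 : Matrix ι κ U) w = 0 := by
  funext i; simp [mv_apply]

theorem mv_one {ι : Type} [Fintype ι] [DecidableEq ι] (w : ι → Pl) :
    mv (1 : Matrix ι ι U) w = w := by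
  funext i; simp [mv_apply, one_apply]

theorem mv_mem {ι κ : Type} [Fintype κ] (b : Matrix ι κ U) {w : κ → Pl} {n : ℕ}
    (hw : ∀ j, w j ∈ W n) (i : ι) : mv b w i ∈ W n :=
  Submodule.sum_mem _ fun j _ => W_smul _ (hw j)

/-- divergence -/
noncomputable def dv : (Fin 2 → Pl) →ₗ[ℚ] Pl where
  toFun p := ∑ s, pderiv (s, ()) (p s)
  map_add' w w' := by simp [Finset.sum_add_distrib]
  map_smul' c w := by simp [Finset.smul_sum]

theorem dv_apply (p : Fin 2 → Pl) : dv p = ∑ s, pderiv (s, ()) (p s) := rfl

theorem pderiv_comm' (i j : Fin 2 × Unit) (p : Pl) :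
    pderiv i (pderiv j p) = pderiv j (pderiv i p) := by
  induction p using MvPolynomial.induction_on with
  | C c => simp
  | add p q hp hq => simp [hp, hq]
  | mul_X p n hp =>
    simp only [Derivation.leibniz, smul_eq_mul, map_add, hp, pderiv_X]
    have : ∀ a b : Fin 2 × Unit, pderiv a (Pi.single (M := fun _ => Pl) b (1 : Pl) n) = 0 := by
      intro a b
      rw [Pi.single_apply]; split_ifs <;> simp
    rw [this, this]; ring

theorem dv_Dl (u : U) (p : Fin 2 → Pl) : dv (mv (Dl u) p) = u • dv p := by
  induction u using U_ind generalizing p with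
  | h1 c =>
    have : mv (Dl (algebraMap ℚ U c)) p = c • p := by
      funext s
      rw [AlgHom.commutes]
      simp [mv_apply, Matrix.algebraMap_matrix_apply]
    rw [this, map_smul, algebraMap_smul]
  | hE x =>
    obtain ⟨i, j⟩ := x
    fin_cases i <;> fin_cases j <;>
      simp [dv_apply, mv_apply, Dl_E, Fin.sum_univ_two, sub_smul, E_smul, Derivation.leibniz,
        pderiv_comm' (1, ()) (0, ())] <;> ring
  | hm a b h h' => rw [map_mul, mv_mul, h, h', mul_smul]
  | ha a b h h' => rw [map_add, mv_add, map_add, h, h', add_smul]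

theorem euler {n : ℕ} {p : Pl} (hp : p.IsHomogeneous n) :
    X (0, ()) * pderiv (0, ()) p + X (1, ()) * pderiv (1, ()) p = (n : ℚ) • p := by
  have := hp.sum_X_mul_pderiv
  rw [Fintype.sum_prod_type] at this
  rw [Nat.cast_smul_eq_nsmul, ← this]
  simp

theorem mv_gg {n : ℕ} {p : Fin 2 → Pl} (hp : ∀ s, p s ∈ W (n + 1)) (s : Fin 2) :
    mv gg p s = X (s, ()) * dv p - ((n : ℚ) + 1) • p s := by
  have h := euler (hp s)
  fin_cases s <;>
    simp [dv_apply, mv_apply, gg, Fin.sum_univ_two, sub_smul, add_smul, E_smul] at h ⊢ <;>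
    linear_combination -h

theorem dv_X {n : ℕ} {q : Pl} (hq : q ∈ W n) : dv (fun s => X (s, ()) * q) = ((n : ℚ) + 1) • q := by
  rcases n with _ | n
  · obtain rfl : q = 0 := hq
    simp [dv_apply]
  · have h := euler hq
    simp [dv_apply, Fin.sum_univ_two, Derivation.leibniz, add_smul] at h ⊢
    linear_combination h

theorem X_mem {n : ℕ} {q : Pl} (hq : q ∈ W n) (s : Fin 2) : X (s, ()) * q ∈ W (n + 1) := by
  rcases n with _ | n
  · obtain rfl : q = 0 := hq
    simp
  · have := (isHomogeneous_X ℚ (s, ())).mul hq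
    rw [add_comm] at this
    exact this

theorem dv_mem {n : ℕ} {p : Fin 2 → Pl} (hp : ∀ s, p s ∈ W (n + 1)) : dv p ∈ W n := by
  rw [dv_apply]
  refine Submodule.sum_mem _ fun s _ => ?_
  rcases n with _ | n
  · have : (p s).IsHomogeneous 0 := hp s
    rw [← totalDegree_zero_iff_isHomogeneous, totalDegree_eq_zero_iff_eq_C] at this
    rw [this]; simp
  · exact IsHomogeneous.pderiv (hp s)

theorem dv_gg {n : ℕ} {p : Fin 2 → Pl} (hp : ∀ s, p s ∈ W (n + 1)) : dv (mv gg p) = 0 := by
  have : mv gg p = (fun s => X (s, ()) * dv p) - ((n : ℚ) + 1) • p := funext fun s => mv_gg hp s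
  rw [this, map_sub, dv_X (dv_mem hp), map_smul, sub_self]

end Vale.Agent.P176
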