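import Vale.Agent.P176.Cplx

namespace Vale.Agent.P176

open Matrix

variable {N : ℕ} {R : Ix → Matrix (Fin N) (Fin N) ℚ}

/-- rowwise augmentation -/
noncomputable def augM {ι : Type} (β : Fin N → Pl) : Matrix ι (Ai N) U →ₗ[ℚ] (ι → Pl) where
  toFun p := fun i => aug β (p i)
  map_add' p q := by funext i; exact map_add (aug β) _ _
  map_smul' c p := by funext i; exact (aug β).map_smul_of_tower c _

theorem augM_apply {ι : Type} (β : Fin N → Pl) (p : Matrix ι (Ai N) U) (i : ι) :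
    augM β p i = aug β (p i) := rfl

theorem augM_mul {ι κ : Type} [Fintype κ] (β : Fin N → Pl) (m : Matrix ι κ U)
    (p : Matrix κ (Ai N) U) : augM β (m * p) = mv m (augM β p) := by
  funext i
  have : (m * p) i = ∑ k, m i k • p k := by
    funext a; simp [mul_apply]
  rw [augM_apply, this, map_sum, mv_apply]
  simp only [map_smul, augM_apply]

/-- the data of a basis of the symmetric power -/
structure Bas (n : ℕ) (R : Ix → Matrix (Fin N) (Fin N) ℚ) (β : Fin N → Pl) : Prop where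
  gl : Gl R
  act : ∀ x a, E x • β a = ∑ b, R x b a • β b
  li : LinearIndependent ℚ β
  sp : Submodule.span ℚ (Set.range β) = W (n + 1)

variable {n : ℕ} {β : Fin N → Pl}

theorem Bas.aug_d (h : Bas n R β) {ι : Type} (p : Matrix ι (Ai N) U) : augM β (p * dm R) = 0 :=
  funext fun i => by rw [augM_apply, mul_row]; exact Vale.Agent.P176.aug_d h.act (p i)

theorem Bas.aug_mem (h : Bas n R β) {ι : Type} (p : Matrix ι (Ai N) U) (i : ι) :
    augM β p i ∈ W (n + 1) := by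
  rw [augM_apply, aug_apply]
  refine Submodule.sum_mem _ fun b _ => W_smul _ ?_
  rw [← h.sp]
  exact Submodule.subset_span ⟨b, rfl⟩

theorem Bas.exP (h : Bas n R β) {j : ℕ} {p : MP N} (hp : p ∈ RP N j) (hd : p * dm R = 0)
    (ha : augM β p = 0) : ∃ t ∈ RP N (j + 1), p = t * dm R := by
  choose t ht e using fun i => row_exact' h.gl h.act h.li (by positivity) (hp i)
    (by rw [← mul_row, hd]; rfl) (by rw [← augM_apply, ha]; rfl)
  exact ⟨of t, ht, funext fun i => by rw [mul_row]; exact (e i).symm⟩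

theorem Bas.exQ (h : Bas n R β) {j : ℕ} {c : ℤ} (hc : 0 ≤ c) {q : MQ N} (hq : q ∈ RQ N j c)
    (hd : q * dm R = 0) (ha : augM β q = 0) : ∃ t ∈ RQ N (j + 1) c, q = t * dm R := by
  choose t ht e using fun i => row_exact' h.gl h.act h.li (by positivity) (hq i)
    (by rw [← mul_row, hd]; rfl) (by rw [← augM_apply, ha]; rfl)
  exact ⟨of t, ht, funext fun i => by rw [mul_row]; exact (e i).symm⟩

theorem Bas.surjP (h : Bas n R β) {w : Fin 5 → Pl} (hw : ∀ i, w i ∈ W (n + 1)) :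
    ∃ p ∈ RP N 0, augM β p = w := by
  choose t ht e using fun i : Fin 5 => aug_surj β (m := i.val) (by positivity) (h.sp ▸ hw i)
  exact ⟨of t, ht, funext e⟩

theorem Bas.surjQ (h : Bas n R β) {c : ℤ} (hc : 0 ≤ c) {w : I52 → Pl}
    (hw : ∀ i, w i ∈ W (n + 1)) : ∃ q ∈ RQ N 0 c, augM β q = w := by
  choose t ht e using fun i : I52 => aug_surj β (m := i.1.val + c) (by positivity) (h.sp ▸ hw i)
  exact ⟨of t, ht, funext e⟩

theorem posP (β : Fin N → Pl) {j : ℕ} {p : MP N} (hp : p ∈ RP N (j + 1)) : augM β p = 0 :=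
  funext fun i => aug_pos β (hp i)

theorem posQ (β : Fin N → Pl) {j : ℕ} {c : ℤ} {q : MQ N} (hq : q ∈ RQ N (j + 1) c) :
    augM β q = 0 := funext fun i => aug_pos β (hq i)

theorem zeroP {p : MP N} (hp : p ∈ RP N 0) : p * dm R = 0 :=
  funext fun i => by rw [mul_row]; exact Row_zero_d R (hp i)

theorem zeroQ {c : ℤ} {q : MQ N} (hq : q ∈ RQ N 0 c) : q * dm R = 0 :=
  funext fun i => by rw [mul_row]; exact Row_zero_d R (hq i)

theorem Bas.bdry (h : Bas n R β) {j : ℕ} {p : MP N} {q t : MQ N} (hp : p ∈ RP N j)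
    (hq : q ∈ RQ N j 1) (ht : t ∈ RQ N j 0) (h1 : p * dm R = 0) (h2 : augM β p = 0)
    (h3 : q * dm R = gh * (t * dm R)) (h4 : augM β q = augM β (gh * t)) : mq p q ∈ Bm R j := by
  obtain ⟨p', hp', rfl⟩ := h.exP hp h1 h2
  obtain ⟨q', hq', e⟩ := h.exQ zero_le_one (sub_mem hq (RQ_g ht))
    (by rw [Matrix.sub_mul, h3, Matrix.mul_assoc, sub_self]) (by rw [map_sub, h4, sub_self])
  refine (mem_Bm R).mpr ⟨p', hp', q', hq', ?_⟩
  exact (mk_eq hp hq hp (RQ_d R hq')).mpr ⟨rfl, t, ht, by rw [← e, sub_add_cancel]⟩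

theorem cyc {j : ℕ} {p : MP N} {q : MQ N} (hp : p ∈ RP N (j + 1)) (hq : q ∈ RQ N (j + 1) 1) :
    DD R (mq p q) = 0 ↔ p * dm R = 0 ∧ ∃ t ∈ RQ N j 0, q * dm R = gh * t := by
  rw [DD_mk R hp hq, mk_eq_zero (RP_d R hp) (RQ_d R hq)]

theorem Bas.lift (h : Bas n R β) {j : ℕ} {p : MP N} {q t : MQ N} (hp : p ∈ RP N (j + 1))
    (hq : q ∈ RQ N (j + 1) 1) (ht : t ∈ RQ N j 0) (h1 : p * dm R = 0) (h3 : q * dm R = gh * t)
    (h4 : augM β t = 0) : mq p q ∈ Bm R (j + 1) := by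
  have h5 : t * dm R = 0 := gh_inj (by
    rw [← Matrix.mul_assoc, ← h3, Matrix.mul_assoc, dm_sq h.gl, Matrix.mul_zero])
  obtain ⟨t', ht', rfl⟩ := h.exQ le_rfl ht h5 h4
  exact h.bdry hp hq ht' h1 (posP β hp) h3 (by rw [posQ β hq, posQ β (RQ_g ht')])

theorem Bas.exact (h : Bas n R β) {j : ℕ} {x : Ai N → Lam} (hx : x ∈ Cm N (j + 2))
    (h0 : DD R x = 0) : x ∈ Bm R (j + 2) := by
  obtain ⟨p, hp, q, hq, rfl⟩ := mem_Cm.mp hx
  obtain ⟨h1, t, ht, h3⟩ := (cyc hp hq).mp h0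
  exact h.lift hp hq ht h1 h3 (posQ β ht)

theorem tri_D {j : ℕ} {Z : Submodule Lam (Ai N → Lam)} (hZ : Z ≤ Cm N (j + 1))
    (hk : ∀ x ∈ Cm N (j + 1), DD R x = 0 ↔ x ∈ Z) :
    Tri (PL Lam Z) (PL Lam (Cm N (j + 1))) (PL Lam (Bm R j)) := by
  refine tri_of_map hZ ((DD R).comp (Cm N (j + 1)).subtype) (fun w => ?_) fun z => hk z z.2
  constructor
  · rintro ⟨z, hz, rfl⟩; exact ⟨⟨z, hz⟩, rfl⟩
  · rintro ⟨z, rfl⟩; exact ⟨z, z.2, rfl⟩

noncomputable def Gm5 (β : Fin N → Pl) : Submodule Lam ((Ai N → Lam) × (Fin 5 → Pl)) where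
  carrier := {z | ∃ p ∈ RP N 0, ∃ q ∈ RQ N 0 1, z = (mq p q, augM β p)}
  zero_mem' := ⟨0, zero_mem _, 0, zero_mem _, by rw [mk_zero, map_zero]; rfl⟩
  add_mem' := by
    rintro _ _ ⟨p, hp, q, hq, rfl⟩ ⟨p', hp', q', hq', rfl⟩
    exact ⟨_, add_mem hp hp', _, add_mem hq hq', by rw [Prod.mk_add_mk, mk_add hp hq hp' hq', map_add]⟩
  smul_mem' := by
    rintro x _ ⟨p, hp, q, hq, rfl⟩
    obtain ⟨b, hb, y, hy, rfl⟩ := el_surj x
    refine ⟨_, RP_left hb hp, _, add_mem (RQ_left hb hq) (RQ_y hy hp), ?_⟩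
    rw [Prod.smul_mk, smul_mk hb hy hp hq, lam_smul, rho_el hb hy, augM_mul]

noncomputable def Gm4 (β : Fin N → Pl) : Submodule Lam ((Ai N → Lam) × (Fin 5 → Pl)) where
  carrier := {z | ∃ p ∈ RP N 0, ∃ q ∈ RQ N 0 1, augM β p = 0 ∧ z = (mq p q, dvh (augM β q))}
  zero_mem' := ⟨0, zero_mem _, 0, zero_mem _, map_zero _, by rw [mk_zero, map_zero, map_zero]; rfl⟩
  add_mem' := by
    rintro _ _ ⟨p, hp, q, hq, h, rfl⟩ ⟨p', hp', q', hq', h', rfl⟩
    exact ⟨_, add_mem hp hp', _, add_mem hq hq', by rw [map_add, h, h', add_zero],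
      by rw [Prod.mk_add_mk, mk_add hp hq hp' hq', map_add, map_add]⟩
  smul_mem' := by
    rintro x _ ⟨p, hp, q, hq, h, rfl⟩
    obtain ⟨b, hb, y, hy, rfl⟩ := el_surj x
    refine ⟨_, RP_left hb hp, _, add_mem (RQ_left hb hq) (RQ_y hy hp),
      by rw [augM_mul, h, map_zero], ?_⟩
    rw [Prod.smul_mk, smul_mk hb hy hp hq, lam_smul, rho_el hb hy, map_add, augM_mul, augM_mul, h,
      map_zero, add_zero, dvh_Dh]

noncomputable def Gm3 (R : Ix → Matrix (Fin N) (Fin N) ℚ) (β : Fin N → Pl) :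
    Submodule Lam ((Ai N → Lam) × (Fin 5 → Pl)) where
  carrier := {z | ∃ p ∈ RP N 1, ∃ q ∈ RQ N 1 1, ∃ t ∈ RQ N 0 0, p * dm R = 0 ∧ q * dm R = gh * t ∧
    z = (mq p q, dvh (augM β t))}
  zero_mem' := ⟨0, zero_mem _, 0, zero_mem _, 0, zero_mem _, by simp, by simp,
    by rw [mk_zero, map_zero, map_zero]; rfl⟩
  add_mem' := by
    rintro _ _ ⟨p, hp, q, hq, t, ht, h1, h2, rfl⟩ ⟨p', hp', q', hq', t', ht', h1', h2', rfl⟩
    exact ⟨_, add_mem hp hp', _, add_mem hq hq', _, add_mem ht ht',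
      by rw [Matrix.add_mul, h1, h1', add_zero], by rw [Matrix.add_mul, h2, h2', Matrix.mul_add],
      by rw [Prod.mk_add_mk, mk_add hp hq hp' hq', map_add, map_add]⟩
  smul_mem' := by
    rintro x _ ⟨p, hp, q, hq, t, ht, h1, h2, rfl⟩
    obtain ⟨b, hb, y, hy, rfl⟩ := el_surj x
    refine ⟨_, RP_left hb hp, _, add_mem (RQ_left hb hq) (RQ_y hy hp), _, RQ_left hb ht,
      by rw [Matrix.mul_assoc, h1, Matrix.mul_zero], ?_, ?_⟩
    · rw [Matrix.add_mul, Matrix.mul_assoc, Matrix.mul_assoc, h1, h2, Matrix.mul_zero, add_zero,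
        ← Matrix.mul_assoc, ← Matrix.mul_assoc, gh_comm]
    · rw [Prod.smul_mk, smul_mk hb hy hp hq, lam_smul, rho_el hb hy, augM_mul, dvh_Dh]

noncomputable def Km (β : Fin N → Pl) : Submodule Lam (Ai N → Lam) :=
  (Gm4 β).map (LinearMap.fst Lam _ _)

theorem mem_Km {x : Ai N → Lam} : x ∈ Km β ↔ ∃ w, (x, w) ∈ Gm4 β :=
  ⟨fun ⟨z, hz, e⟩ => ⟨z.2, e ▸ hz⟩, fun ⟨_, hw⟩ => ⟨_, hw, rfl⟩⟩

theorem Bas.tri5 (h : Bas n R β) : Tri (PL Lam (Km β)) (PL Lam (Cm N 0)) (PL Lam (Mt (n + 1))) := by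
  refine tri_of_rel ?_ (Gm5 β) (fun x => ?_) (fun w => ?_) ?_
  · intro x hx
    obtain ⟨w, p, hp, q, hq, -, e⟩ := mem_Km.mp hx
    rw [(Prod.mk.inj e).1]; exact mk_mem hp hq
  · rw [mem_Cm]
    constructor
    · rintro ⟨p, hp, q, hq, rfl⟩; exact ⟨_, p, hp, q, hq, rfl⟩
    · rintro ⟨_, p, hp, q, hq, e⟩; exact ⟨p, hp, q, hq, (Prod.mk.inj e).1⟩
  · constructor
    · intro hw
      obtain ⟨p, hp, rfl⟩ := h.surjP hw
      exact ⟨_, p, hp, 0, zero_mem _, rfl⟩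
    · rintro ⟨_, p, hp, q, hq, e⟩
      rw [(Prod.mk.inj e).2]; exact h.aug_mem p
  · rintro _ _ ⟨p, hp, q, hq, e⟩
    obtain ⟨rfl, rfl⟩ := Prod.mk.inj e
    rw [mem_Km]
    constructor
    · intro h0; exact ⟨_, p, hp, q, hq, h0, rfl⟩
    · rintro ⟨_, p', hp', q', hq', h0, e'⟩
      rw [((mk_eq hp hq hp' hq').mp (Prod.mk.inj e').1).1, h0]

theorem Bas.tri4 (h : Bas n R β) : Tri (PL Lam (Bm R 0)) (PL Lam (Km β)) (PL Lam (Mt n)) := by
  refine tri_of_rel ?_ (Gm4 β) (fun x => mem_Km) (fun w => ?_) ?_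
  · intro x hx
    obtain ⟨p, hp, q, hq, rfl⟩ := (mem_Bm R).mp hx
    exact mem_Km.mpr ⟨_, _, RP_d R hp, _, RQ_d R hq, h.aug_d p, rfl⟩
  · constructor
    · intro hw
      obtain ⟨u, hu, rfl, -⟩ := exists_io hw
      obtain ⟨q, hq, rfl⟩ := h.surjQ zero_le_one hu
      exact ⟨_, 0, zero_mem _, q, hq, map_zero _, rfl⟩
    · rintro ⟨_, p, hp, q, hq, -, e⟩
      rw [(Prod.mk.inj e).2]
      intro i
      rw [dvh_apply]
      exact dv_mem fun s => h.aug_mem q (i, s)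
  · rintro _ _ ⟨p, hp, q, hq, h0, e⟩
    obtain ⟨rfl, rfl⟩ := Prod.mk.inj e
    constructor
    · intro h1
      have hc : -((n : ℚ) + 1) ≠ 0 := neg_ne_zero.mpr (by positivity)
      obtain ⟨t, ht, e'⟩ := h.surjQ le_rfl (w := (-((n : ℚ) + 1))⁻¹ • augM β q)
        fun i => Submodule.smul_mem _ _ (h.aug_mem q i)
      refine h.bdry hp hq ht (zeroP hp) h0 (by rw [zeroQ hq, zeroQ ht, Matrix.mul_zero]) ?_
      rw [augM_mul, e', map_smul, mv_gh_of (h.aug_mem q) h1, smul_smul, inv_mul_cancel₀ hc, one_smul]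
    · intro hx
      obtain ⟨p', hp', q', hq', e'⟩ := (mem_Bm R).mp hx
      obtain ⟨-, t, ht, rfl⟩ := (mk_eq hp hq (RP_d R hp') (RQ_d R hq')).mp e'
      rw [map_add, h.aug_d, zero_add, augM_mul, dvh_gh (h.aug_mem t)]

theorem Bas.tri3 (h : Bas n R β) :
    Tri (PL Lam (Bm R 1)) (PL Lam ↥(Cm N 1 ⊓ LinearMap.ker (DD R))) (PL Lam (Mt n)) := by
  refine tri_of_rel (fun x hx => Submodule.mem_inf.mpr ⟨Bm_le R 1 hx, DD_Bm h.gl hx⟩) (Gm3 R β) (fun x => ?_)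
    (fun w => ?_) ?_
  · constructor
    · rintro ⟨hx, h0⟩
      obtain ⟨p, hp, q, hq, rfl⟩ := mem_Cm.mp hx
      obtain ⟨h1, t, ht, h3⟩ := (cyc hp hq).mp h0
      exact ⟨_, p, hp, q, hq, t, ht, h1, h3, rfl⟩
    · rintro ⟨_, p, hp, q, hq, t, ht, h1, h3, e⟩
      rw [(Prod.mk.inj e).1]
      exact ⟨mk_mem hp hq, (cyc hp hq).mpr ⟨h1, t, ht, h3⟩⟩
  · constructor
    · intro hw
      obtain ⟨u, hu, rfl, h0⟩ := exists_io hw
      obtain ⟨t, ht, rfl⟩ := h.surjQ le_rfl hu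
      obtain ⟨q, hq, e⟩ := h.exQ zero_le_one (RQ_g ht) (zeroQ (RQ_g ht)) (by rw [augM_mul, h0])
      exact ⟨_, 0, zero_mem _, q, hq, t, ht, Matrix.zero_mul _, e.symm, rfl⟩
    · rintro ⟨_, p, hp, q, hq, t, ht, -, -, e⟩
      rw [(Prod.mk.inj e).2]
      intro i
      rw [dvh_apply]
      exact dv_mem fun s => h.aug_mem t (i, s)
  · rintro _ _ ⟨p, hp, q, hq, t, ht, h1, h3, e⟩
    obtain ⟨rfl, rfl⟩ := Prod.mk.inj e
    constructor
    · intro h0
      have hc : -((n : ℚ) + 1) ≠ 0 := neg_ne_zero.mpr (by positivity)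
      have h4 := mv_gh_of (h.aug_mem t) h0
      rw [← augM_mul, ← h3, h.aug_d] at h4
      exact h.lift hp hq ht h1 h3 ((smul_eq_zero.mp h4.symm).resolve_left hc)
    · intro hx
      obtain ⟨p', hp', q', hq', e'⟩ := (mem_Bm R).mp hx
      obtain ⟨-, t', ht', rfl⟩ := (mk_eq hp hq (RP_d R hp') (RQ_d R hq')).mp e'
      have : t = t' * dm R := by
        refine sub_eq_zero.mp (gh_inj ?_)
        rw [Matrix.mul_sub, ← h3, Matrix.add_mul, Matrix.mul_assoc, dm_sq h.gl, Matrix.mul_zero,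
          zero_add, Matrix.mul_assoc, sub_self]
      rw [this, h.aug_d, map_zero]

theorem Bas.step (h : Bas n R β) :
    Step (PL Lam (Mt (n + 1))) (PL Lam (Mt n)) fun j => PL Lam (Bm R j) where
  ex := by
    refine ⟨fun j => PL Lam (Cm N j), _, _, fun j m => (PL_one_iff.mpr (Cm_proj j)).mono (by omega),
      ?_, fun j => tri_D (Bm_le R _) fun x hx => ⟨h.exact hx, DD_Bm h.gl⟩,
      tri_D inf_le_left fun x hx => ⟨fun h0 => ⟨hx, h0⟩, fun h0 => h0.2⟩, h.tri3, h.tri4, h.tri5⟩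
    have : Bm R 4 = ⊥ := by rw [Bm, Cm_five, Submodule.map_bot]
    have : Subsingleton (Bm R 4) := by rw [this]; infer_instance
    exact PL_zero
  mono := fun _ _ _ hnm h' => h'.mono hnm
  mono' := fun _ _ hnm h' => h'.mono hnm

theorem Bas.not_proj (h : Bas n R β) : ¬ PL Lam (Bm R 2) 1 := by
  rw [PL_one_iff]
  intro hP
  have hN : Nonempty (Fin N) := by
    by_contra hN
    rw [not_nonempty_iff] at hN
    have h1 := h.sp
    rw [Set.range_eq_empty, Submodule.span_empty] at h1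
    have h2 : (MvPolynomial.X (0, ()) ^ n : Pl) ∈ W (n + 1) := MvPolynomial.isHomogeneous_X_pow _ _
    rw [← h1, Submodule.mem_bot] at h2
    exact pow_ne_zero n (MvPolynomial.X_ne_zero _) h2
  obtain ⟨b0⟩ := hN
  let f : Cm N 3 →ₗ[Lam] Bm R 2 :=
    ((DD R).comp (Cm N 3).subtype).codRestrict _ fun z => ⟨z, z.2, rfl⟩
  have hf : Function.Surjective f := by
    rintro ⟨_, z, hz, rfl⟩; exact ⟨⟨z, hz⟩, rfl⟩
  obtain ⟨σ, hσ⟩ := Module.projective_lifting_property f LinearMap.id hf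
  let pr : (Ai N → Lam) →ₗ[Lam] Cm N 3 := (prj N 3).codRestrict _ fun x => ⟨x, rfl⟩
  let r : (Ai N → Lam) →ₗ[Lam] (Ai N → Lam) :=
    (Cm N 3).subtype ∘ₗ (LinearMap.id - σ ∘ₗ f) ∘ₗ pr
  have hr0 : ∀ x, r x = (pr x - σ (f (pr x)) : Cm N 3) := fun x => rfl
  have hr : ∀ x, r x ∈ Bm R 3 := by
    intro x
    rw [hr0]
    refine h.exact (pr x - σ (f (pr x))).2 ?_
    have : f (pr x - σ (f (pr x))) = 0 := by
      have := LinearMap.congr_fun hσ (f (pr x))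
      rw [LinearMap.comp_apply, LinearMap.id_apply] at this
      rw [map_sub, this, sub_self]
    exact congrArg Subtype.val this
  have hr1 : ∀ x ∈ Bm R 3, r x = x := by
    intro x hx
    have h1 : pr x = ⟨x, Bm_le R 3 hx⟩ := by
      obtain ⟨y, hy⟩ := Bm_le R 3 hx
      exact Subtype.ext (by change prj N 3 x = x; rw [← hy, prj_prj])
    have h2 : f ⟨x, Bm_le R 3 hx⟩ = 0 := Subtype.ext (DD_Bm h.gl hx)
    rw [hr0, h1, h2, map_zero, sub_zero]
  have hinj : ∀ x ∈ Cm N 4, DD R x = 0 → x = 0 := by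
    intro x hx h0
    have := h.exact hx h0
    rwa [Bm, Cm_five, Submodule.map_bot, Submodule.mem_bot] at this
  choose c hc hc' using fun a : Ai N => hr (Pi.single a 1)
  let x0 : Ai N → Lam := prj N 4 (Pi.single (15, b0) 1)
  have hx0 : x0 ∈ Cm N 4 := ⟨_, rfl⟩
  have hD : DD R x0 ∈ Bm R 3 := ⟨x0, hx0, rfl⟩
  have e1 : DD R x0 = ∑ a, (DD R x0 a * idm 3 a) • Pi.single a (1 : Lam) := by
    obtain ⟨y, hy⟩ := Bm_le R 3 hD
    funext b
    rw [Finset.sum_apply, Finset.sum_eq_single b]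
    · simp only [Pi.smul_apply, Pi.single_eq_same, smul_eq_mul, mul_one]
      rw [← prj_apply, ← hy, prj_prj]
    · intro a _ ha; simp [Ne.symm ha]
    · simp
  have e2 : DD R (x0 - ∑ a, (DD R x0 a * idm 3 a) • c a) = 0 := by
    rw [map_sub, map_sum, sub_eq_zero, ← hr1 _ hD]
    conv_lhs => rw [e1, map_sum]
    refine Finset.sum_congr rfl fun a _ => ?_
    rw [map_smul, map_smul, hc', hr1 _ hD]
  have e3 := hinj _ (sub_mem hx0 (Submodule.sum_mem _ fun a _ => Submodule.smul_mem _ _ (hc a))) e2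
  have e4 := congrArg (fun z : Ai N → Lam => rho (z (15, b0)) 4 4) (sub_eq_zero.mp e3)
  have e5 : ∀ a : Ai N, rho (idm 3 a) 4 4 = 0 := by
    intro a
    rw [idm]
    split_ifs with ha
    · rw [ee, rho_el (single_one_mem _) (zero_mem _), single_apply_of_row_ne]
      intro h4
      have := congrArg Fin.val h4
      simp only [vx] at this
      omega
    · simp
  have e6 : rho (x0 (15, b0)) 4 4 = 1 := by
    have : vx ((15 : Fin 16), b0) = 4 := Fin.ext lab_top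
    simp only [x0, prj_apply, Pi.single_eq_same, one_mul, idm, lab_top, if_true, this, ee]
    rw [rho_el (single_one_mem _) (zero_mem _), single_apply_same]
  simp only [e6, Finset.sum_apply, Pi.smul_apply, smul_eq_mul, map_sum, Matrix.sum_apply, chi_mul,
    e5, mul_zero, zero_mul, Finset.sum_const_zero] at e4
  have := congrArg ev e4
  rw [ev_one, map_zero] at this
  exact one_ne_zero this

theorem pd_Mt (n : ℕ) : PL Lam (Mt (n + 1)) (2 * n + 5) ∧ ¬ PL Lam (Mt (n + 1)) (2 * n + 4) := by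
  refine chain (fun n => PL Lam (Mt n)) PL_zero (fun n => ?_) n
  obtain ⟨N, R, β, h1, h2, h3, h4⟩ := exists_basis (n + 1)
  have h : Bas n R β := ⟨h1, h2, h3, h4⟩
  exact ⟨_, h.step, h.not_proj⟩

end Vale.Agent.P176
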