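import Vale.Agent.P176.Car

namespace Vale.Agent.P176

open MvPolynomial

/-- the gl2 commutation relations -/
def Gl {R : Type*} [Ring R] (e : Ix → R) : Prop :=
  ∀ x y : Ix, e x * e y - e y * e x =
    (if x.2 = y.1 then e (x.1, y.2) else 0) - (if y.2 = x.1 then e (y.1, x.2) else 0)

inductive Rel : FreeAlgebra ℚ Ix → FreeAlgebra ℚ Ix → Prop
  | mk (x y : Ix) : Rel (FreeAlgebra.ι ℚ x * FreeAlgebra.ι ℚ y - FreeAlgebra.ι ℚ y * FreeAlgebra.ι ℚ x)
      ((if x.2 = y.1 then FreeAlgebra.ι ℚ (x.1, y.2) else 0) -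
        (if y.2 = x.1 then FreeAlgebra.ι ℚ (y.1, x.2) else 0))

/-- the enveloping algebra of gl2 -/
def U : Type := RingQuot Rel

noncomputable instance : Ring U := inferInstanceAs (Ring (RingQuot Rel))
noncomputable instance : Algebra ℚ U := inferInstanceAs (Algebra ℚ (RingQuot Rel))

noncomputable def mkU : FreeAlgebra ℚ Ix →ₐ[ℚ] U := RingQuot.mkAlgHom ℚ Rel

noncomputable def E (x : Ix) : U := mkU (FreeAlgebra.ι ℚ x)

theorem gl_E : Gl E := by
  intro x y
  have h := RingQuot.mkAlgHom_rel ℚ (Rel.mk x y)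
  change mkU _ = mkU _ at h
  simp only [map_sub, map_mul] at h
  unfold E
  rw [h]
  split_ifs <;> simp

noncomputable def liftU {R : Type*} [Ring R] [Algebra ℚ R] (e : Ix → R) (h : Gl e) : U →ₐ[ℚ] R :=
  RingQuot.liftAlgHom ℚ (s := Rel) ⟨FreeAlgebra.lift ℚ e, by
    rintro _ _ ⟨x, y⟩
    simp only [map_sub, map_mul, FreeAlgebra.lift_ι_apply]
    rw [h x y]
    split_ifs <;> simp⟩

theorem liftU_E {R : Type*} [Ring R] [Algebra ℚ R] (e : Ix → R) (h : Gl e) (x : Ix) :
    liftU e h (E x) = e x := by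
  unfold liftU E mkU
  erw [RingQuot.liftAlgHom_mkAlgHom_apply]
  simp

theorem mkU_surj : Function.Surjective mkU := RingQuot.mkAlgHom_surjective ℚ Rel

theorem U_ind {P : U → Prop} (h1 : ∀ c : ℚ, P (algebraMap ℚ U c)) (hE : ∀ x, P (E x))
    (hm : ∀ a b, P a → P b → P (a * b)) (ha : ∀ a b, P a → P b → P (a + b)) (u : U) : P u := by
  obtain ⟨f, rfl⟩ := mkU_surj u
  induction f using FreeAlgebra.induction with
  | grade0 c => rw [AlgHom.commutes]; exact h1 c
  | grade1 x => exact hE x
  | mul a b h h' => rw [map_mul]; exact hm _ _ h h'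
  | add a b h h' => rw [map_add]; exact ha _ _ h h'

/-- ordered product of generators -/
noncomputable def mon (l : List Ix) : U := (l.map E).prod

@[simp] theorem mon_nil : mon [] = 1 := rfl
theorem mon_cons (x : Ix) (l : List Ix) : mon (x :: l) = E x * mon l := by simp [mon]
theorem mon_append (l l' : List Ix) : mon (l ++ l') = mon l * mon l' := by simp [mon]

/-- the standard filtration -/
noncomputable def G (k : ℤ) : Submodule ℚ U :=
  Submodule.span ℚ {u | ∃ l : List Ix, (l.length : ℤ) ≤ k ∧ u = mon l}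

theorem mon_mem {l : List Ix} {k : ℤ} (h : (l.length : ℤ) ≤ k) : mon l ∈ G k :=
  Submodule.subset_span ⟨l, h, rfl⟩

theorem G_mono {a b : ℤ} (h : a ≤ b) : G a ≤ G b :=
  Submodule.span_mono fun _ ⟨l, hl, e⟩ => ⟨l, hl.trans h, e⟩

theorem G_ind {k : ℤ} {P : U → Prop} (h0 : P 0) (hm : ∀ l : List Ix, (l.length : ℤ) ≤ k → P (mon l))
    (ha : ∀ a b, P a → P b → P (a + b)) (hs : ∀ (c : ℚ) a, P a → P (c • a)) {u : U}
    (hu : u ∈ G k) : P u := by
  induction hu using Submodule.span_induction with
  | mem x hx => obtain ⟨l, hl, rfl⟩ := hx; exact hm l hl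
  | zero => exact h0
  | add a b _ _ h h' => exact ha _ _ h h'
  | smul c a _ h => exact hs _ _ h

theorem G_neg {k : ℤ} (h : k < 0) {u : U} (hu : u ∈ G k) : u = 0 := by
  refine G_ind (P := fun u => u = 0) rfl (fun l hl => by omega) ?_ ?_ hu
  · rintro _ _ rfl rfl; simp
  · rintro _ _ rfl; simp

theorem G_mul {a b c : ℤ} {u v : U} (hu : u ∈ G a) (hv : v ∈ G b) (h : a + b ≤ c) :
    u * v ∈ G c := by
  refine G_ind (P := fun u => u * v ∈ G c) (by simp) (fun l hl => ?_)
    (fun x y hx hy => by rw [add_mul]; exact add_mem hx hy)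
    (fun r x hx => by rw [smul_mul_assoc]; exact Submodule.smul_mem _ _ hx) hu
  refine G_ind (P := fun v => mon l * v ∈ G c) (by simp) (fun l' hl' => ?_)
    (fun x y hx hy => by rw [mul_add]; exact add_mem hx hy)
    (fun r x hx => by rw [mul_smul_comm]; exact Submodule.smul_mem _ _ hx) hv
  rw [← mon_append]
  exact mon_mem (by simp; omega)

theorem one_mem_G {k : ℤ} (h : 0 ≤ k) : (1 : U) ∈ G k := mon_mem (l := []) (by simpa using h)

theorem alg_mem_G {k : ℤ} (h : 0 ≤ k) (c : ℚ) : algebraMap ℚ U c ∈ G k := by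
  rw [Algebra.algebraMap_eq_smul_one]; exact Submodule.smul_mem _ _ (one_mem_G h)

theorem E_mem {k : ℤ} (h : 1 ≤ k) (x : Ix) : E x ∈ G k := by
  have := mon_mem (l := [x]) (k := k) (by simpa using h)
  simpa [mon] using this

theorem G_zero {u : U} (hu : u ∈ G 0) : ∃ c : ℚ, u = algebraMap ℚ U c := by
  refine G_ind (P := fun u => ∃ c : ℚ, u = algebraMap ℚ U c) ⟨0, by simp⟩ (fun l hl => ?_) ?_ ?_ hu
  · have : l = [] := List.length_eq_zero_iff.mp (by omega)
    subst this; exact ⟨1, by simp⟩
  · rintro _ _ ⟨a, rfl⟩ ⟨b, rfl⟩; exact ⟨a + b, by simp⟩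
  · rintro c _ ⟨a, rfl⟩; exact ⟨c * a, by simp [Algebra.smul_def]⟩

theorem exists_G (u : U) : ∃ n : ℕ, u ∈ G n := by
  induction u using U_ind with
  | h1 c => exact ⟨0, alg_mem_G (by simp) c⟩
  | hE x => exact ⟨1, E_mem (by simp) x⟩
  | hm a b h h' =>
    obtain ⟨n, hn⟩ := h; obtain ⟨m, hm⟩ := h'
    exact ⟨n + m, G_mul hn hm (by simp)⟩
  | ha a b h h' =>
    obtain ⟨n, hn⟩ := h; obtain ⟨m, hm⟩ := h'
    exact ⟨n + m, add_mem (G_mono (by simp) hn) (G_mono (by simp) hm)⟩

theorem G_fg (k : ℤ) : (G k).FG := by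
  refine Submodule.fg_span ?_
  refine ((List.finite_length_le Ix k.toNat).image mon).subset ?_
  rintro _ ⟨l, hl, rfl⟩
  exact ⟨l, by simp; omega, rfl⟩

theorem comm_E (x y : Ix) : E x * E y - E y * E x ∈ G 1 := by
  rw [gl_E x y]
  refine sub_mem ?_ ?_ <;> split_ifs
  all_goals first | exact E_mem le_rfl _ | exact zero_mem _

theorem perm_mon {l l' : List Ix} (h : l.Perm l') : mon l - mon l' ∈ G (l.length - 1) := by
  induction h with
  | nil => simp
  | cons x _ ih =>
    rw [mon_cons, mon_cons, ← mul_sub]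
    exact G_mul (E_mem le_rfl x) ih (by simp)
  | swap x y l =>
    rw [mon_cons, mon_cons, mon_cons, mon_cons, ← mul_assoc, ← mul_assoc, ← sub_mul]
    exact G_mul (comm_E y x) (mon_mem le_rfl) (by simp; omega)
  | trans h1 _ ih1 ih2 =>
    rw [← h1.length_eq] at ih2
    simpa using add_mem ih1 ih2

theorem comm_G {k : ℤ} {u : U} (hu : u ∈ G k) (x : Ix) : u * E x - E x * u ∈ G k := by
  refine G_ind (P := fun u => u * E x - E x * u ∈ G k) (by simp) (fun l hl => ?_) ?_ ?_ hu
  · have h := perm_mon (List.perm_append_singleton x l)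
    rw [mon_append, mon_cons x l] at h
    have h' : mon l * E x - E x * mon l ∈ G ((l ++ [x]).length - 1) := by simpa [mon] using h
    exact G_mono (by simp; omega) h'
  · intro a b ha hb
    have := add_mem ha hb
    convert this using 1; noncomm_ring
  · intro c a ha
    have := Submodule.smul_mem _ c ha
    convert this using 1
    rw [smul_sub, smul_mul_assoc, mul_smul_comm]

/-- polarization operators -/
noncomputable def pol {α : Type} [Fintype α] (x : Ix) :
    Module.End ℚ (MvPolynomial (Fin 2 × α) ℚ) :=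
  ∑ a : α, (LinearMap.mulLeft ℚ (X (x.1, a))).comp (pderiv (x.2, a)).toLinearMap

theorem pol_apply {α : Type} [Fintype α] (x : Ix) (p : MvPolynomial (Fin 2 × α) ℚ) :
    pol x p = ∑ a : α, X (x.1, a) * pderiv (x.2, a) p := by
  simp [pol, LinearMap.sum_apply]

theorem pol_mul {α : Type} [Fintype α] (x : Ix) (p q : MvPolynomial (Fin 2 × α) ℚ) :
    pol x (p * q) = pol x p * q + p * pol x q := by
  simp only [pol_apply, Derivation.leibniz, smul_eq_mul, Finset.sum_mul, Finset.mul_sum,
    ← Finset.sum_add_distrib]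
  exact Finset.sum_congr rfl fun a _ => by ring

theorem pol_X {α : Type} [Fintype α] [DecidableEq α] (x : Ix) (k : Fin 2) (b : α) :
    pol x (X (k, b) : MvPolynomial (Fin 2 × α) ℚ) = if x.2 = k then X (x.1, b) else 0 := by
  rw [pol_apply, Finset.sum_eq_single b]
  · by_cases h : x.2 = k
    · simp [h]
    · rw [pderiv_X_of_ne (by simp [Ne.symm h])]; simp [h]
  · intro a _ hab
    rw [pderiv_X_of_ne (by simp [Ne.symm hab])]; simp
  · simp

theorem pol_C {α : Type} [Fintype α] (x : Ix) (c : ℚ) :
    pol x (C c : MvPolynomial (Fin 2 × α) ℚ) = 0 := by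
  simp [pol_apply]

theorem gl_pol {α : Type} [Fintype α] [DecidableEq α] :
    Gl (pol : Ix → Module.End ℚ (MvPolynomial (Fin 2 × α) ℚ)) := by
  intro x y
  refine LinearMap.ext fun p => ?_
  induction p using MvPolynomial.induction_on with
  | C c => split_ifs <;> simp [pol_C]
  | add p q hp hq => rw [map_add, map_add, hp, hq]
  | mul_X p n hp =>
    obtain ⟨k, b⟩ := n
    obtain ⟨i, j⟩ := x
    obtain ⟨k', l⟩ := y
    simp only [LinearMap.sub_apply, Module.End.mul_apply] at hp ⊢
    have h2 : pol (i, j) (pol (k', l) (p * X (k, b))) - pol (k', l) (pol (i, j) (p * X (k, b))) =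
        (pol (i, j) (pol (k', l) p) - pol (k', l) (pol (i, j) p)) * X (k, b) +
        p * (pol (i, j) (pol (k', l) (X (k, b))) - pol (k', l) (pol (i, j) (X (k, b)))) := by
      simp only [pol_mul, map_add]; ring
    rw [h2, hp]
    fin_cases i <;> fin_cases j <;> fin_cases k' <;> fin_cases l <;> fin_cases k <;>
      simp [pol_mul, pol_X] <;> ring

theorem pol_hom {α : Type} [Fintype α] (x : Ix) {p : MvPolynomial (Fin 2 × α) ℚ} {n : ℕ}
    (hp : p.IsHomogeneous n) : (pol x p).IsHomogeneous n := by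
  rw [pol_apply]
  refine IsHomogeneous.sum _ _ _ fun a _ => ?_
  rcases n with _ | n
  · rw [← totalDegree_zero_iff_isHomogeneous, totalDegree_eq_zero_iff_eq_C] at hp
    rw [hp]; simp [isHomogeneous_zero]
  · have := (isHomogeneous_X ℚ (x.1, a)).mul (hp.pderiv (i := (x.2, a)))
    simpa [add_comm] using this

abbrev S := MvPolynomial Ix ℚ

noncomputable def tau0 (x : Ix) : Module.End ℚ S := pol x + LinearMap.mulLeft ℚ (X x)

theorem gl_tau0 : Gl tau0 := by
  intro x y
  refine LinearMap.ext fun p => ?_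
  have h := LinearMap.congr_fun (gl_pol (α := Fin 2) x y) p
  obtain ⟨i, j⟩ := x
  obtain ⟨k, l⟩ := y
  simp only [tau0, LinearMap.sub_apply, Module.End.mul_apply, LinearMap.add_apply, map_add,
    LinearMap.mulLeft_apply, pol_mul, pol_X] at h ⊢
  by_cases h1 : j = k <;> by_cases h2 : l = i <;> simp only [h1, h2, if_true, if_false] at h ⊢ <;>
    simp only [LinearMap.add_apply, LinearMap.mulLeft_apply, LinearMap.zero_apply] at h ⊢ <;>
    linear_combination h

noncomputable def tau : U →ₐ[ℚ] Module.End ℚ S := liftU tau0 gl_tau0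

noncomputable def ev : U →ₗ[ℚ] S := (LinearMap.applyₗ (1 : S)).comp tau.toLinearMap

theorem ev_E (x : Ix) (u : U) : ev (E x * u) = pol x (ev u) + X x * ev u := by
  simp [ev, tau, liftU_E, tau0]

theorem ev_one : ev 1 = 1 := by simp [ev]

noncomputable def Lo (n : ℕ) : Submodule ℚ S := ⨆ k : {k : ℕ // k < n}, homogeneousSubmodule Ix ℚ k.1

theorem mem_Lo {n k : ℕ} (h : k < n) {p : S} (hp : p.IsHomogeneous k) : p ∈ Lo n :=
  Submodule.mem_iSup_of_mem ⟨k, h⟩ hp

theorem Lo_step {n : ℕ} {p : S} (hp : p ∈ Lo n) (x : Ix) : pol x p + X x * p ∈ Lo (n + 1) := by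
  induction hp using Submodule.iSup_induction' with
  | mem k p hp =>
    refine add_mem (mem_Lo (k := k.1) (by have := k.2; omega) (pol_hom x hp))
      (mem_Lo (k := 1 + k.1) (by have := k.2; omega) ((isHomogeneous_X ℚ x).mul hp))
  | zero => simp
  | add p q _ _ hp hq =>
    have := add_mem hp hq
    convert this using 1
    rw [map_add]; ring

theorem Lo_comp {n m : ℕ} {p : S} (hp : p ∈ Lo n) (h : n ≤ m) : homogeneousComponent m p = 0 := by
  induction hp using Submodule.iSup_induction' with
  | mem k p hp =>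
    rw [homogeneousComponent_of_mem hp, if_neg (by have := k.2; omega)]
  | zero => simp
  | add p q _ _ hp hq => rw [map_add, hp, hq, add_zero]

noncomputable def xmon (l : List Ix) : S := (l.map X).prod

theorem xmon_hom (l : List Ix) : (xmon l).IsHomogeneous l.length := by
  induction l with
  | nil => simpa [xmon] using isHomogeneous_one Ix ℚ
  | cons x l ih =>
    have := (isHomogeneous_X ℚ x).mul ih
    simpa [xmon, add_comm] using this

theorem ev_mon (l : List Ix) : ev (mon l) - xmon l ∈ Lo l.length := by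
  induction l with
  | nil => simp [ev_one, xmon]
  | cons x l ih =>
    have h1 := Lo_step ih x
    have h2 : pol x (xmon l) ∈ Lo (l.length + 1) := mem_Lo (by omega) (pol_hom x (xmon_hom l))
    have := add_mem h1 h2
    rw [List.length_cons]
    convert this using 1
    rw [mon_cons, ev_E, map_sub]
    simp only [xmon, List.map_cons, List.prod_cons]; ring

/-- the symbol map -/
noncomputable def sym (n : ℕ) : U →ₗ[ℚ] S := (homogeneousComponent n).comp ev

theorem sym_mon {n : ℕ} {l : List Ix} (h : l.length ≤ n) :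
    sym n (mon l) = if n = l.length then xmon l else 0 := by
  have h1 := Lo_comp (ev_mon l) h
  rw [map_sub, sub_eq_zero] at h1
  simp only [sym, LinearMap.comp_apply, h1]
  exact homogeneousComponent_of_mem (xmon_hom l)

theorem sym_hom (n : ℕ) (u : U) : (sym n u).IsHomogeneous n :=
  homogeneousComponent_isHomogeneous n _

theorem sym_low {n : ℕ} {u : U} (hu : u ∈ G (n - 1)) : sym n u = 0 := by
  refine G_ind (P := fun u => sym n u = 0) (by simp) (fun l hl => ?_)
    (fun a b ha hb => by rw [map_add, ha, hb, add_zero])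
    (fun c a ha => by rw [map_smul, ha, smul_zero]) hu
  rw [sym_mon (by omega), if_neg (by omega)]

theorem sym_E {n : ℕ} {u : U} (hu : u ∈ G n) (x : Ix) : sym (n + 1) (E x * u) = X x * sym n u := by
  refine G_ind (P := fun u => sym (n + 1) (E x * u) = X x * sym n u) (by simp) (fun l hl => ?_)
    (fun a b ha hb => by rw [mul_add, map_add, ha, hb, map_add, mul_add])
    (fun c a ha => by rw [mul_smul_comm, map_smul, ha, map_smul, mul_smul_comm]) hu
  rw [← mon_cons, sym_mon (by simp; omega), sym_mon (by omega)]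
  by_cases h : n = l.length <;> simp [h, xmon]

theorem sym_E' {n : ℕ} {u : U} (hu : u ∈ G n) (x : Ix) : sym (n + 1) (u * E x) = X x * sym n u := by
  have h := sym_low (n := n + 1) (u := u * E x - E x * u) (by simpa using comm_G hu x)
  rw [map_sub, sub_eq_zero] at h
  rw [h, sym_E hu]

/-- a list of variables with given multiplicities -/
noncomputable def lst (d : Ix →₀ ℕ) : List Ix := d.toMultiset.toList

theorem lst_length (d : Ix →₀ ℕ) : (lst d).length = d.degree := by
  simp [lst, Finsupp.card_toMultiset, Finsupp.degree_apply, Finsupp.sum]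

theorem xmon_eq (l : List Ix) : xmon l = monomial (Multiset.toFinsupp (l : Multiset Ix)) 1 := by
  induction l with
  | nil => simp [xmon]
  | cons x l ih =>
    have : xmon (x :: l) = X x * xmon l := by simp [xmon]
    rw [this, ih, ← Multiset.cons_coe, ← Multiset.singleton_add, map_add,
      Multiset.toFinsupp_singleton, X, monomial_mul, one_mul]

theorem xmon_lst (d : Ix →₀ ℕ) : xmon (lst d) = monomial d 1 := by
  rw [xmon_eq]; simp [lst]

/-- a linear section of the symbol maps -/
noncomputable def sec : S →ₗ[ℚ] U := (basisMonomials Ix ℚ).constr ℚ fun d => mon (lst d)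

theorem sec_monomial (d : Ix →₀ ℕ) (c : ℚ) : sec (monomial d c) = c • mon (lst d) := by
  have h : (monomial d c : S) = c • basisMonomials Ix ℚ d := by
    simp [smul_monomial]
  rw [h, map_smul, sec, Module.Basis.constr_basis]

theorem sec_spec {n : ℕ} {p : S} (hp : p.IsHomogeneous n) : sec p ∈ G n ∧ sym n (sec p) = p := by
  have key : ∀ d ∈ p.support, (lst d).length = n := by
    intro d hd
    rw [lst_length]
    have := hp (mem_support_iff.mp hd)
    rw [Finsupp.degree_eq_weight_one]; exact this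
  constructor
  · rw [p.as_sum, map_sum]
    refine Submodule.sum_mem _ fun d hd => ?_
    rw [sec_monomial]
    exact Submodule.smul_mem _ _ (mon_mem (by rw [key d hd]))
  · conv_lhs => rw [p.as_sum, map_sum, map_sum]
    conv_rhs => rw [p.as_sum]
    refine Finset.sum_congr rfl fun d hd => ?_
    rw [sec_monomial, map_smul, sym_mon (key d hd).le, if_pos (key d hd).symm, xmon_lst]
    simp [smul_monomial]

theorem sub_sec {n : ℕ} {u : U} (hu : u ∈ G n) : u - sec (sym n u) ∈ G (n - 1) := by
  refine G_ind (P := fun u => u - sec (sym n u) ∈ G (n - 1)) (by simp) (fun l hl => ?_) ?_ ?_ hu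
  · rw [sym_mon (by omega)]
    split_ifs with h
    · rw [xmon_eq, sec_monomial, one_smul, h]
      refine perm_mon ?_
      rw [← Multiset.coe_eq_coe]
      simp [lst]
    · simpa using mon_mem (by omega)
  · intro a b ha hb
    have := add_mem ha hb
    convert this using 1
    simp only [map_add]; abel
  · intro c a ha
    have := Submodule.smul_mem _ c ha
    convert this using 1
    simp only [map_smul, smul_sub]

theorem low_of_sym {n : ℕ} {u : U} (hu : u ∈ G n) (h : sym n u = 0) : u ∈ G (n - 1) := by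
  simpa [h] using sub_sec hu

end Vale.Agent.P176
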